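import Vale.Agent.P264.U.Jac

/-! P264 U/Alg (TASK): linear algebra on the cone.
`alg_conj`: `T = 1 + vecMulVec (w - v) Z`; `det T = 1 + Z ⬝ᵥ (w - v) = 1` (`Matrix.det_one_add_replicateCol_mul_replicateRow`,
`vecMulVec_eq`), `T * N = N` from `Z ᵥ* N = 0`, `N * Tᴴ = N` from `N *ᵥ star Z = 0`, `T * vv v * Tᴴ = vv (T *ᵥ v)`.
`alg_minor_det`: by `alg_det` take `v = single j 1`. With `B = (1 : Mat).updateRow j Z` (`det B = Z j = 1`), row `j` of
`B * (K + vv v)` is `single j 1` and the other rows are those of `K`; `Matrix.det_succ_row`.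
`alg_minor_tr`: `alg_minor_det` for `K + s • N`, all real `s`; differentiate at `0` with `jac_line`, `HasDerivAt.unique`.
`alg_minor_pos`: for `x ≠ 0` write `x = x j • star Z + x'` with `x' j = 0`; then `star x ⬝ᵥ K *ᵥ x` is the form of the minor
at `x' ∘ succAbove j` (`Fin.sum_univ_succAbove`), positive unless `x' = 0`, and then `|star v ⬝ᵥ x|² = |x j|² > 0`. -/

noncomputable section

open Set Filter Topology MeasureTheory Matrix
open scoped ContDiff ComplexConjugate ComplexOrder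

namespace Vale.Agent.P264.U

/-- Invariance of the trace under a simultaneous congruence. -/
theorem alg_congr_tr {n : ℕ} {T : Matrix (Fin n) (Fin n) ℂ} (hT : T.det ≠ 0)
    (A N : Matrix (Fin n) (Fin n) ℂ) :
    ((T * A * Tᴴ)⁻¹ * (T * N * Tᴴ)).trace = (A⁻¹ * N).trace := by
  have hu : IsUnit T.det := hT.isUnit
  have hu' : IsUnit Tᴴ.det := by
    rw [det_conjTranspose]
    exact hu.star
  rw [Matrix.mul_inv_rev, Matrix.mul_inv_rev]
  simp only [Matrix.mul_assoc]
  rw [nonsing_inv_mul_cancel_left _ _ hu, trace_mul_comm]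
  simp only [Matrix.mul_assoc]
  rw [mul_nonsing_inv _ hu', Matrix.mul_one]

theorem alg_conj {n : ℕ} {Z v w : Fin n → ℂ} (hv : v ⬝ᵥ Z = 1) (hw : w ⬝ᵥ Z = 1) :
    ∃ T : Matrix (Fin n) (Fin n) ℂ, T.det = 1 ∧ T * vv v * Tᴴ = vv w ∧
      ∀ N, Kills Z N → T * N * Tᴴ = N := by
  have h1 : (1 + vecMulVec (w - v) Z) *ᵥ v = w := by
    rw [add_mulVec, one_mulVec, vecMulVec_mulVec, dotProduct_comm, hv]
    simp
  refine ⟨1 + vecMulVec (w - v) Z, ?_, ?_, fun N hN => ?_⟩
  · rw [vecMulVec_eq Unit, det_one_add_replicateCol_mul_replicateRow, dotProduct_comm,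
      sub_dotProduct, hv, hw, sub_self, add_zero]
  · rw [vv, mul_vecMulVec, vecMulVec_mul, ← star_mulVec, h1, vv]
  · rw [Matrix.add_mul, Matrix.one_mul, vecMulVec_mul, hN.1, vecMulVec_zero, add_zero,
      conjTranspose_add, conjTranspose_one, Matrix.mul_add, Matrix.mul_one,
      conjTranspose_vecMulVec, mul_vecMulVec, hN.2, zero_vecMulVec, add_zero]

theorem alg_det {n : ℕ} {Z v w : Fin n → ℂ} (hv : v ⬝ᵥ Z = 1) (hw : w ⬝ᵥ Z = 1)
    {K : Matrix (Fin n) (Fin n) ℂ} (hK : Kills Z K) : (K + vv v).det = (K + vv w).det := by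
  obtain ⟨T, h1, h2, h3⟩ := alg_conj hv hw
  have e : K + vv w = T * (K + vv v) * Tᴴ := by rw [Matrix.mul_add, Matrix.add_mul, h2, h3 K hK]
  rw [e, det_mul, det_mul, det_conjTranspose, h1, star_one, one_mul, mul_one]

theorem alg_tr {n : ℕ} {Z v w : Fin n → ℂ} (hv : v ⬝ᵥ Z = 1) (hw : w ⬝ᵥ Z = 1)
    {K N : Matrix (Fin n) (Fin n) ℂ} (hK : Kills Z K) (hN : Kills Z N) :
    ((K + vv v)⁻¹ * N).trace = ((K + vv w)⁻¹ * N).trace := by
  obtain ⟨T, h1, h2, h3⟩ := alg_conj hv hw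
  have e : K + vv w = T * (K + vv v) * Tᴴ := by rw [Matrix.mul_add, Matrix.add_mul, h2, h3 K hK]
  rw [e, ← alg_congr_tr (T := T) (h1 ▸ one_ne_zero), h3 N hN]

theorem alg_minor_det {n : ℕ} {Z v : Fin (n + 1) → ℂ} {j : Fin (n + 1)} (hj : Z j = 1)
    (hv : v ⬝ᵥ Z = 1) {K : Matrix (Fin (n + 1)) (Fin (n + 1)) ℂ} (hK : Kills Z K) :
    (K + vv v).det = (K.submatrix j.succAbove j.succAbove).det := by
  have hs : (Pi.single j 1 : Fin (n + 1) → ℂ) ⬝ᵥ Z = 1 := by rw [single_dotProduct, one_mul, hj]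
  rw [alg_det hv hs hK]
  have h1 : Z ᵥ* (K + vv (Pi.single j 1)) = Pi.single j 1 := by
    rw [vecMul_add, hK.1, zero_add, vv, vecMul_vecMulVec, dotProduct_comm, hs, one_smul]
    ext i
    by_cases h : i = j <;> simp [h]
  have h2 := det_updateRow_sum (K + vv (Pi.single j 1)) j Z
  have h3 : ∑ k, Z k • (K + vv (Pi.single j 1)) k = Pi.single j 1 :=
    (vecMul_eq_sum _ _).symm.trans h1
  rw [h3, hj, one_smul, det_succ_row _ j, Finset.sum_eq_single j
    (fun b _ hb => by simp [hb]) (by simp)] at h2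
  rw [← h2, updateRow_self, Pi.single_eq_same, mul_one, ← two_mul, pow_mul, neg_one_sq, one_pow,
    one_mul]
  congr 1
  ext a b
  simp [vv, vecMulVec_apply, updateRow_ne, Fin.succAbove_ne]

theorem alg_minor_tr {n : ℕ} {Z v : Fin (n + 1) → ℂ} {j : Fin (n + 1)} (hj : Z j = 1)
    (hv : v ⬝ᵥ Z = 1) {K N : Matrix (Fin (n + 1)) (Fin (n + 1)) ℂ} (hK : Kills Z K) (hN : Kills Z N)
    (h0 : (K + vv v).det ≠ 0) : ((K + vv v)⁻¹ * N).trace =
      ((K.submatrix j.succAbove j.succAbove)⁻¹ * N.submatrix j.succAbove j.succAbove).trace := by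
  have h1 := alg_minor_det hj hv hK
  have e : (fun s : ℝ => (K + vv v + (s : ℂ) • N).det) = fun s : ℝ =>
      (K.submatrix j.succAbove j.succAbove + (s : ℂ) • N.submatrix j.succAbove j.succAbove).det :=
    funext fun s => by
      rw [add_right_comm, alg_minor_det hj hv (K := K + (s : ℂ) • N) ⟨by
        rw [vecMul_add, vecMul_smul, hK.1, hN.1, smul_zero, add_zero], by
        rw [add_mulVec, smul_mulVec, hK.2, hN.2, smul_zero, add_zero]⟩]
      rfl
  have h2 := jac_line (K + vv v) N h0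
  rw [e] at h2
  have h3 := h2.unique (jac_line _ _ (h1 ▸ h0))
  rw [← h1] at h3
  exact mul_left_cancel₀ h0 h3

theorem alg_minor_pos {n : ℕ} {Z v : Fin (n + 1) → ℂ} {j : Fin (n + 1)} (hj : Z j = 1)
    (hv : v ⬝ᵥ Z = 1) {K : Matrix (Fin (n + 1)) (Fin (n + 1)) ℂ} (hK : Kills Z K)
    (hH : K.IsHermitian) (hp : (K.submatrix j.succAbove j.succAbove).PosDef) :
    (K + vv v).PosDef := by
  have hvv : (vv v).PosSemidef := posSemidef_vecMulVec_self_star v
  refine PosDef.of_dotProduct_mulVec_pos (hH.add hvv.1) fun x hx => ?_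
  set y : Fin (n + 1) → ℂ := x - x j • star Z with hy
  have yj : y j = 0 := by simp [hy, hj]
  have e1 : K *ᵥ x = K *ᵥ y := by rw [hy, mulVec_sub, mulVec_smul, hK.2, smul_zero, sub_zero]
  have e2 : star x ᵥ* K = star y ᵥ* K := by
    rw [hy, star_sub, star_smul, star_star, sub_vecMul, smul_vecMul, hK.1, smul_zero, sub_zero]
  have e3 : star x ⬝ᵥ K *ᵥ x = star (y ∘ j.succAbove) ⬝ᵥ
      K.submatrix j.succAbove j.succAbove *ᵥ (y ∘ j.succAbove) := by
    rw [e1, dotProduct_mulVec, e2, ← dotProduct_mulVec]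
    simp only [dotProduct, mulVec, Fin.sum_univ_succAbove _ j, Pi.star_apply, yj, star_zero,
      zero_mul, mul_zero, zero_add, submatrix_apply, Function.comp_apply]
  rw [add_mulVec, dotProduct_add, e3]
  by_cases h : y ∘ j.succAbove = 0
  · have y0 : y = 0 := funext fun i => by
      rcases eq_or_ne i j with rfl | hi
      · exact yj
      · obtain ⟨a, rfl⟩ := Fin.exists_succAbove_eq hi
        exact congrFun h a
    have e4 : x = x j • star Z := sub_eq_zero.1 y0
    have xj : x j ≠ 0 := fun h0 => hx (by rw [e4, h0, zero_smul])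
    have e5 : star v ⬝ᵥ x = x j := by
      rw [e4, dotProduct_smul, star_dotProduct_star, dotProduct_comm, hv]
      simp [hj]
    have e6 : star x ⬝ᵥ v = star (x j) := by rw [← e5, star_dotProduct]
    rw [h, mulVec_zero, dotProduct_zero, zero_add, vv, vecMulVec_mulVec, dotProduct_smul, e5, e6]
    simpa [mul_comm] using star_mul_self_pos (IsRegular.of_ne_zero xj)
  · exact add_pos_of_pos_of_nonneg (hp.dotProduct_mulVec_pos h) (hvv.dotProduct_mulVec_nonneg x)

end Vale.Agent.P264.U
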