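import Vale.Agent.P264.U.Hom
import Vale.Agent.P264.U.Alg

/-! P264 U/Cov (TASK): covariance under invertible linear maps.
`A *ᵥ Z ≠ 0` for `Z ≠ 0` (`Matrix.eq_zero_of_mulVec_eq_zero`). `Gh_lin`; positivity by
`Matrix.PosDef.mul_mul_conjTranspose_same` (injectivity from `det ≠ 0`).
`Vol (Φ ∘ A) y = ‖det A‖² * Vol Φ (A y)`, so near `Z`: `Lam (Φ ∘ A) y = Lam Φ (A y) + const`; `cHess_congr`, `cHess_add_const`,
`cHess_lin` (for `Lam Φ`, smooth by `Pot.lam`), `alg_congr_tr` with `T = Aᵀ`.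
WARNING: unfold `Vol`, `Lam`, `lap`, `Sc` by `unfold`/`rw`, never by defeq. -/

noncomputable section

open Set Filter Topology MeasureTheory Matrix
open scoped ContDiff ComplexConjugate ComplexOrder

namespace Vale.Agent.P264.U

theorem ne_Cov {A : Mat} (hA : A.det ≠ 0) {Z : V} (hZ : Z ≠ 0) : A *ᵥ Z ≠ 0 :=
  fun h => hZ (Matrix.eq_zero_of_mulVec_eq_zero hA h)

theorem smooth_Cov (A : Mat) : ContDiff ℝ ∞ fun Z : V => A *ᵥ Z :=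
  (LinearMap.toContinuousLinearMap ((Matrix.mulVecLin A).restrictScalars ℝ)).contDiff

theorem det_Cov {n : ℕ} (A G : Matrix (Fin n) (Fin n) ℂ) {v : ℝ} (h : G.det = (v : ℂ)) :
    (Aᵀ * G * Aᵀᴴ).det.re = v * ‖A.det‖ ^ 2 := by
  rw [det_mul, det_mul, det_conjTranspose, det_transpose, h, mul_right_comm, Complex.star_def,
    Complex.mul_conj, Complex.normSq_eq_norm_sq, ← Complex.ofReal_mul, Complex.ofReal_re, mul_comm]

theorem lam_Cov {A : Mat} (hA : A.det ≠ 0) {Φ : V → ℝ} (h : Pot Φ) {Z : V} (hZ : Z ≠ 0) :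
    Lam (fun Z => Φ (A *ᵥ Z)) Z = Lam Φ (A *ᵥ Z) + Real.log (‖A.det‖ ^ 2) := by
  have h1 : Vol (fun Z => Φ (A *ᵥ Z)) Z = Vol Φ (A *ᵥ Z) * ‖A.det‖ ^ 2 := by
    rw [← det_Cov A _ (h.det_eq (ne_Cov hA hZ)), ← Gh_lin A (h.hom.at2 (ne_Cov hA hZ))]
    rw [Vol]
  unfold Lam
  rw [h1, Real.log_mul (h.vol_pos (ne_Cov hA hZ)).ne' (pow_pos (norm_pos_iff.2 hA) 2).ne']

theorem cov_pot {A : Mat} (hA : A.det ≠ 0) {Φ : V → ℝ} (h : Pot Φ) : Pot fun Z => Φ (A *ᵥ Z) := by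
  refine ⟨⟨?_, fun c Z hc hZ => ?_⟩, fun Z hZ => ?_⟩
  · exact ContDiffOn.comp (g := Φ) (f := fun Z : V => A *ᵥ Z) h.hom.smooth
      (smooth_Cov A).contDiffOn fun Z hZ => ne_Cov hA hZ
  · rw [Matrix.mulVec_smul, h.hom.hom c _ hc (ne_Cov hA hZ)]
  · rw [Gh_lin A (h.hom.at2 (ne_Cov hA hZ))]
    refine (h.pos _ (ne_Cov hA hZ)).mul_mul_conjTranspose_same ?_
    rw [Matrix.vecMul_injective_iff_isUnit, Matrix.isUnit_iff_isUnit_det, det_transpose]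
    exact hA.isUnit

theorem cov_sc {A : Mat} (hA : A.det ≠ 0) {Φ : V → ℝ} (h : Pot Φ) {Z : V} (hZ : Z ≠ 0) :
    Sc (fun Z => Φ (A *ᵥ Z)) Z = Sc Φ (A *ᵥ Z) := by
  have h1 : Lam (fun Z => Φ (A *ᵥ Z)) =ᶠ[𝓝 Z]
      fun y => Lam Φ (A *ᵥ y) + Real.log (‖A.det‖ ^ 2) := by
    filter_upwards [Om_nhds hZ] with y hy
    exact lam_Cov hA h hy
  have h2 : cHess (Lam fun Z => Φ (A *ᵥ Z)) Z = Aᵀ * cHess (Lam Φ) (A *ᵥ Z) * Aᵀᴴ := by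
    rw [cHess_congr h1, cHess_add_const (fun y => Lam Φ (A *ᵥ y)),
      cHess_lin A (h.lam.at2 (ne_Cov hA hZ))]
  have hT : Aᵀ.det ≠ 0 := by rwa [det_transpose]
  unfold Sc lap
  rw [h2, Gh_lin A (h.hom.at2 (ne_Cov hA hZ)), alg_congr_tr hT]

theorem cov_flow {A : Mat} (hA : A.det ≠ 0) {κ : ℝ} {Φ : ℝ → V → ℝ} (h : Flow κ Φ) :
    Flow κ fun t Z => Φ t (A *ᵥ Z) := by
  refine ⟨?_, fun t ht => cov_pot hA (h.pot t ht), fun t ht Z hZ => ?_⟩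
  · have h1 : ContDiff ℝ ∞ fun p : ℝ × V => (p.1, A *ᵥ p.2) :=
      contDiff_fst.prodMk (ContDiff.comp (g := fun Z : V => A *ᵥ Z) (f := fun p : ℝ × V => p.2)
        (smooth_Cov A) contDiff_snd)
    exact ContDiffOn.comp (g := fun p : ℝ × V => Φ p.1 p.2)
      (f := fun p : ℝ × V => (p.1, A *ᵥ p.2)) h.smooth h1.contDiffOn
      fun p hp => ⟨hp.1, ne_Cov hA hp.2⟩
  · rw [cov_sc hA (h.pot t ht.le) hZ]
    exact h.eqn t ht _ (ne_Cov hA hZ)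

end Vale.Agent.P264.U
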