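import Vale.Agent.P264.U.Hom
import Vale.Agent.P264.U.Alg

/-! P264 U/Transfer (TASK): from charts to the cone. `Φ Z = log (nsq Z) + ψ Z`, `pot ψ j = Φ ∘ chart j` (`rfl`).
`tr_hom`: `nsq_smul_U`, `Real.log_mul`. `tr_pot`: at `W = chart j z`: `cHess_chart`, `hom_kills`, `hom_euler`, `cHess_herm`,
`alg_minor_pos`; a general `Z ≠ 0` is `Z j • chart j (fun i => Z (j.succAbove i) / Z j)` for `Z j ≠ 0` (`tr_chart`,
`Fin.insertNth`, `Fin.succAboveCases`), then `hom_Gh` and `Matrix.PosDef.smul`.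
`tr_scal`: `log (cHess (pot ψ j) y).det.re = Lam Φ (chart j y)` for all `y` (`alg_minor_det`), `cHess_chart` for `Lam Φ`
(`Pot.lam`), `alg_minor_tr` with `hom_kills` for `Lam Φ`.
`tr_flow`: `φ τ Z = φ τ (chart j z)` for `τ ≥ 0` (from `(h.kahler τ).hom` and `h0.hom`), eventually near `t > 0`;
`Pot.sc_hom`, `HasDerivAt.const_add`, `HasDerivAt.congr_of_eventuallyEq`.
WARNING: unfold `Vol`, `Lam`, `lap`, `Sc` by `unfold`/`rw`, never by defeq. -/

noncomputable section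

open Set Filter Topology MeasureTheory Matrix
open scoped ContDiff ComplexConjugate ComplexOrder

namespace Vale.Agent.P264.U

theorem ne_Transfer (j : Fin 8) (z : Fin 7 → ℂ) : chart j z ≠ 0 := fun e => by
  have h := chart_self j z
  rw [e] at h
  exact zero_ne_one h

theorem pot_Transfer (ψ : V → ℝ) (j : Fin 8) :
    pot ψ j = fun y => (fun Z => Real.log (nsq Z) + ψ Z) (chart j y) := rfl

theorem tr_chart {Z : V} (hZ : Z ≠ 0) : ∃ (j : Fin 8) (z : Fin 7 → ℂ) (c : ℂ), c ≠ 0 ∧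
    Z = c • chart j z := by
  obtain ⟨j, hj⟩ := Function.ne_iff.1 hZ
  have hj' : Z j ≠ 0 := hj
  refine ⟨j, fun i => Z (j.succAbove i) / Z j, Z j, hj', funext fun k => ?_⟩
  refine Fin.succAboveCases j ?_ (fun i => ?_) k
  · rw [Pi.smul_apply, chart_self, smul_eq_mul, mul_one]
  · rw [Pi.smul_apply, chart, Fin.insertNth_apply_succAbove, smul_eq_mul, mul_div_cancel₀ _ hj']

theorem sm_Transfer : ContDiffOn ℝ ∞ (fun Z : V => Real.log (nsq Z)) Om :=
  contDiff_nsq_U.contDiffOn.log fun _ hZ => (nsq_pos_U hZ).ne'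

theorem tr_hom {ψ : V → ℝ} (h : IsKahlerPot ψ) : LogHom 1 fun Z => Real.log (nsq Z) + ψ Z := by
  refine ⟨sm_Transfer.add h.smooth, fun c Z hc hZ => ?_⟩
  rw [nsq_smul_U, Real.log_mul (pow_ne_zero 2 (norm_ne_zero_iff.2 hc)) (nsq_pos_U hZ).ne',
    h.hom c Z hc hZ]
  ring

theorem euler_Transfer {Φ : V → ℝ} (h : LogHom 1 Φ) {Z : V} (hZ : Z ≠ 0) : gr Φ Z ⬝ᵥ Z = 1 := by
  rw [hom_euler h hZ, Complex.ofReal_one]

theorem tr_pot {ψ : V → ℝ} (h : IsKahlerPot ψ) : Pot fun Z => Real.log (nsq Z) + ψ Z := by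
  have hh := tr_hom h
  refine ⟨hh, fun Z hZ => ?_⟩
  obtain ⟨j, z, c, hc, rfl⟩ := tr_chart hZ
  have hW := ne_Transfer j z
  rw [hom_Gh hh hW hc]
  refine Matrix.PosDef.smul ?_ ?_
  · unfold Gh
    refine alg_minor_pos (chart_self j z) (euler_Transfer hh hW) (hom_kills hh hW)
      (cHess_herm (hh.at2 hW)) ?_
    rw [← cHess_chart j (hh.at2 hW), ← pot_Transfer]
    exact h.pos j z
  · exact Complex.zero_lt_real.2 (inv_pos.2 (pow_pos (norm_pos_iff.2 hc) 2))

theorem scal_Transfer {Φ : V → ℝ} (h : Pot Φ) (j : Fin 8) (z : Fin 7 → ℂ) :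
    scal (fun y => Φ (chart j y)) z = Sc Φ (chart j z) := by
  have e : (fun y => Real.log (cHess (fun y => Φ (chart j y)) y).det.re) =
      fun y => Lam Φ (chart j y) := funext fun y => by
    have hW := ne_Transfer j y
    unfold Lam Vol Gh
    rw [cHess_chart j (h.hom.at2 hW),
      alg_minor_det (chart_self j y) (euler_Transfer h.hom hW) (hom_kills h.hom hW)]
  have hW := ne_Transfer j z
  have h0 := h.det_ne hW
  unfold Gh at h0
  unfold scal Sc lap Gh
  rw [e, cHess_chart j (h.lam.at2 hW), cHess_chart j (h.hom.at2 hW),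
    alg_minor_tr (chart_self j z) (euler_Transfer h.hom hW) (hom_kills h.hom hW)
      (hom_kills h.lam hW) h0]

theorem tr_scal {ψ : V → ℝ} (h : IsKahlerPot ψ) (j : Fin 8) (z : Fin 7 → ℂ) :
    scal (pot ψ j) z = Sc (fun Z => Real.log (nsq Z) + ψ Z) (chart j z) := by
  rw [pot_Transfer]
  exact scal_Transfer (tr_pot h) j z

theorem tr_flow {ψ0 : V → ℝ} {κ : ℝ} {φ : ℝ → V → ℝ} (h0 : IsKahlerPot ψ0)
    (h : IsCalabiFlow ψ0 κ φ) : Flow κ fun t Z => Real.log (nsq Z) + (ψ0 Z + φ t Z) := by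
  refine ⟨?_, fun t ht => tr_pot (h.kahler t ht), fun t ht Z hZ => ?_⟩
  · have hm : MapsTo (Prod.snd : ℝ × V → V) Dom Om := fun p hp => hp.2
    exact (sm_Transfer.comp contDiffOn_snd hm).add
      ((h0.smooth.comp contDiffOn_snd hm).add h.smooth)
  · obtain ⟨j, z, c, hc, rfl⟩ := tr_chart hZ
    have hW := ne_Transfer j z
    have h1 := h.eqn t ht j z
    rw [tr_scal (h.kahler t ht.le)] at h1
    rw [(tr_pot (h.kahler t ht.le)).sc_hom hW hc]
    refine ((h1.const_add (ψ0 (chart j z))).const_add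
      (Real.log (nsq (c • chart j z)))).congr_of_eventuallyEq ?_
    filter_upwards [Ioi_mem_nhds ht] with τ hτ
    rw [(h.kahler τ (le_of_lt hτ)).hom c _ hc hW]

end Vale.Agent.P264.U
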