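import Vale.Agent.P264.U.Uniq
import Vale.Agent.P264.U.Cov
import Vale.Agent.P264.U.Transfer

/-! P264 U/Main (helper76): symmetries of the initial metric are preserved. -/

noncomputable section

open Set Filter Topology MeasureTheory Matrix
open scoped ContDiff ComplexConjugate ComplexOrder

namespace Vale.Agent.P264.U

/-- The block matrix `1 ⊕ U`. -/
def blk (U : Matrix (Fin 7) (Fin 7) ℂ) : Mat := Matrix.of fun a b =>
  Fin.cases (Fin.cases 1 (fun _ => 0) b) (fun i => Fin.cases 0 (fun j => U i j) b) a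

theorem blk_mulVec (U : Matrix (Fin 7) (Fin 7) ℂ) (a : ℂ) (z : Fin 7 → ℂ) :
    blk U *ᵥ (Fin.cons a z : V) = Fin.cons a (U *ᵥ z) := by
  funext k
  rw [Matrix.mulVec, dotProduct, Fin.sum_univ_succ]
  refine Fin.cases ?_ (fun i => ?_) k
  · simp only [blk, Matrix.of_apply, Fin.cases_zero, Fin.cases_succ, Fin.cons_zero, one_mul, zero_mul,
      Finset.sum_const_zero, add_zero]
  · simp only [blk, Matrix.of_apply, Fin.cases_zero, Fin.cases_succ, Fin.cons_succ, zero_mul,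
      zero_add, Matrix.mulVec, dotProduct]

theorem nsq_dot_Main {n : ℕ} (z : Fin n → ℂ) : ((nsq z : ℝ) : ℂ) = star z ⬝ᵥ z := by
  simp only [nsq, dotProduct, Pi.star_apply, Complex.star_def, Complex.conj_mul', Complex.ofReal_sum,
    Complex.ofReal_pow]

theorem nsq_unit_Main {U : Matrix (Fin 7) (Fin 7) ℂ} (hU : U ∈ Matrix.unitaryGroup (Fin 7) ℂ)
    (z : Fin 7 → ℂ) : nsq (U *ᵥ z) = nsq z := by
  have h : Uᴴ * U = 1 := Matrix.mem_unitaryGroup_iff'.1 hU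
  apply Complex.ofReal_injective
  rw [nsq_dot_Main, nsq_dot_Main, Matrix.star_mulVec, Matrix.dotProduct_mulVec, Matrix.vecMul_vecMul, h,
    Matrix.vecMul_one]

theorem nsq_blk {U : Matrix (Fin 7) (Fin 7) ℂ} (hU : U ∈ Matrix.unitaryGroup (Fin 7) ℂ) (Z : V) :
    nsq (blk U *ᵥ Z) = nsq Z := by
  rw [← Fin.cons_self_tail Z, blk_mulVec]
  have h := nsq_unit_Main hU (Fin.tail Z)
  unfold nsq at h ⊢
  rw [Fin.sum_univ_succ, Fin.sum_univ_succ (n := 7)]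
  simp only [Fin.cons_zero, Fin.cons_succ, h]

theorem blk_det {U : Matrix (Fin 7) (Fin 7) ℂ} (hU : U ∈ Matrix.unitaryGroup (Fin 7) ℂ) :
    (blk U).det ≠ 0 := fun h => by
  obtain ⟨v, hv, h0⟩ := Matrix.exists_mulVec_eq_zero_iff.2 h
  have h1 := nsq_blk hU v
  rw [h0] at h1
  have h2 := nsq_pos_U hv
  rw [← h1] at h2
  simp [nsq] at h2

theorem main (ψ0 : (Fin 8 → ℂ) → ℝ) (κ : ℝ) (φ : ℝ → (Fin 8 → ℂ) → ℝ)
    (h0 : IsKahlerPot ψ0) (hi : Inv ψ0) (h : IsCalabiFlow ψ0 κ φ) :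
    ∀ t, 0 ≤ t → Inv (φ t) := by
  intro t ht U hU a z hz
  have h1 := tr_flow h0 h
  have h2 := cov_flow (blk_det hU) h1
  have hψ : ∀ Z : V, Z ≠ 0 → ψ0 (blk U *ᵥ Z) = ψ0 Z := fun Z hZ => by
    rw [← Fin.cons_self_tail Z] at hZ ⊢
    rw [blk_mulVec]
    exact hi U hU _ _ hZ
  have h3 := uniq h2 h1 (fun Z hZ => by
    have hA : blk U *ᵥ Z ≠ 0 := fun e => hZ (Matrix.eq_zero_of_mulVec_eq_zero (blk_det hU) e)
    simp only [nsq_blk hU, hψ Z hZ, h.init Z hZ, h.init _ hA]) t ht _ hz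
  simp only [nsq_blk hU, hψ _ hz] at h3
  rw [blk_mulVec] at h3
  linarith

end Vale.Agent.P264.U

namespace Vale.Agent.P264

theorem blockU' (ψ0 : (Fin 8 → ℂ) → ℝ) (κ : ℝ) (φ : ℝ → (Fin 8 → ℂ) → ℝ)
    (h0 : IsKahlerPot ψ0) (hi : Inv ψ0) (h : IsCalabiFlow ψ0 κ φ) :
    ∀ t, 0 ≤ t → Inv (φ t) := U.main ψ0 κ φ h0 hi h

end Vale.Agent.P264
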