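import Vale.Agent.P264.U.Defs

/-! P264 U/Jac (TASK): smoothness and derivatives of determinants and inverses of complex matrices.
Copy the proofs of `Vale/Agent/P252/Jacobi.lean` (`contDiffAt_det`, `contDiffAt_adjugate`, `contDiffAt_inv_entry`,
`hasGrad_det_adj`, `pd_inv_entry`) with `ℂ` entries and `fderiv ℝ · x v` (`HasFDerivAt.finsetProd`, or first
`HasDerivAt` along the line `s ↦ x + s • v`). `jac_line` is the case `M s = A + s • B`. -/

noncomputable section

open Set Filter Topology MeasureTheory Matrix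
open scoped ContDiff ComplexConjugate ComplexOrder

namespace Vale.Agent.P264.U

variable {E : Type} [NormedAddCommGroup E] [NormedSpace ℝ E] {ι : Type} [Fintype ι] [DecidableEq ι]

theorem jac_cd_det {M : E → Matrix ι ι ℂ} {s : Set E} {x : E} {m : WithTop ℕ∞}
    (hM : ∀ i j, ContDiffWithinAt ℝ m (fun y => M y i j) s x) :
    ContDiffWithinAt ℝ m (fun y => (M y).det) s x := by
  simp only [Matrix.det_apply']
  exact ContDiffWithinAt.sum fun σ _ =>
    contDiffWithinAt_const.mul (contDiffWithinAt_prod fun i _ => hM _ _)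

theorem jac_cd_inv {M : E → Matrix ι ι ℂ} {s : Set E} {x : E} {m : WithTop ℕ∞}
    (hM : ∀ i j, ContDiffWithinAt ℝ m (fun y => M y i j) s x) (h0 : (M x).det ≠ 0) (i j : ι) :
    ContDiffWithinAt ℝ m (fun y => (M y)⁻¹ i j) s x := by
  simp only [Matrix.inv_def, Ring.inverse_eq_inv', Matrix.smul_apply, smul_eq_mul,
    Matrix.adjugate_apply]
  refine ((jac_cd_det hM).inv h0).mul (jac_cd_det fun a b => ?_)
  by_cases h : a = j
  · subst h; simp only [Matrix.updateRow_self]; exact contDiffWithinAt_const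
  · simp only [Matrix.updateRow_ne h]; exact hM a b

theorem jac_at_det {M : E → Matrix ι ι ℂ} {x : E} {m : WithTop ℕ∞}
    (hM : ∀ i j, ContDiffAt ℝ m (fun y => M y i j) x) :
    ContDiffAt ℝ m (fun y => (M y).det) x :=
  contDiffWithinAt_univ.1 (jac_cd_det fun i j => (hM i j).contDiffWithinAt)

theorem jac_at_inv {M : E → Matrix ι ι ℂ} {x : E} {m : WithTop ℕ∞}
    (hM : ∀ i j, ContDiffAt ℝ m (fun y => M y i j) x) (h0 : (M x).det ≠ 0) (i j : ι) :
    ContDiffAt ℝ m (fun y => (M y)⁻¹ i j) x :=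
  contDiffWithinAt_univ.1 (jac_cd_inv (fun i j => (hM i j).contDiffWithinAt) h0 i j)

/-- Jacobi formula. -/
theorem jac_fderiv_det {M : E → Matrix ι ι ℂ} {x : E}
    (hM : ∀ i j, ContDiffAt ℝ 1 (fun y => M y i j) x) (h0 : (M x).det ≠ 0) (v : E) :
    fderiv ℝ (fun y => (M y).det) x v =
      (M x).det * ∑ i, ∑ j, (M x)⁻¹ i j * fderiv ℝ (fun y => M y j i) x v := by
  have hd : ∀ i j, HasFDerivAt (fun y => M y i j) (fderiv ℝ (fun y => M y i j) x) x :=
    fun i j => ((hM i j).differentiableAt (by simp)).hasFDerivAt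
  have h := HasFDerivAt.fun_sum (u := Finset.univ) fun (σ : Equiv.Perm ι) _ =>
    (HasFDerivAt.finsetProd (u := Finset.univ) fun i _ => hd (σ i) i).const_mul
      ((Equiv.Perm.sign σ : ℤ) : ℂ)
  have e : (fun y => (M y).det) =
      fun y => ∑ σ : Equiv.Perm ι, ((Equiv.Perm.sign σ : ℤ) : ℂ) * ∏ i, M y (σ i) i := by
    funext y
    rw [Matrix.det_apply']
  rw [e, h.fderiv]
  have h1 : ∀ i, (M x).det * ∑ j, (M x)⁻¹ i j * fderiv ℝ (fun y => M y j i) x v
      = ((M x).updateCol i fun j => fderiv ℝ (fun y => M y j i) x v).det := fun i => by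
    rw [← Matrix.cramer_apply, Matrix.cramer_eq_adjugate_mulVec]
    simp only [Finset.mul_sum, Matrix.inv_def, Ring.inverse_eq_inv', Matrix.smul_apply,
      smul_eq_mul, Matrix.mulVec, dotProduct]
    refine Finset.sum_congr rfl fun j _ => ?_
    field_simp
  rw [Finset.mul_sum]
  simp only [h1]
  simp only [Matrix.det_apply', _root_.sum_apply, _root_.smul_apply,
    smul_eq_mul, Finset.mul_sum]
  rw [Finset.sum_comm]
  refine Finset.sum_congr rfl fun i _ => Finset.sum_congr rfl fun σ _ => ?_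
  congr 1
  rw [← Finset.mul_prod_erase Finset.univ _ (Finset.mem_univ i), Matrix.updateCol_self, mul_comm]
  congr 1
  exact Finset.prod_congr rfl fun j hj => by
    rw [Matrix.updateCol_ne (Finset.ne_of_mem_erase hj)]

/-- Derivative of the inverse. -/
theorem jac_fderiv_inv {M : E → Matrix ι ι ℂ} {x : E}
    (hM : ∀ i j, ContDiffAt ℝ 1 (fun y => M y i j) x) (h0 : (M x).det ≠ 0) (v : E) (i j : ι) :
    fderiv ℝ (fun y => (M y)⁻¹ i j) x v =
      -∑ a, ∑ b, (M x)⁻¹ i a * fderiv ℝ (fun y => M y a b) x v * (M x)⁻¹ b j := by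
  have hinv := jac_at_inv hM h0
  have hev : ∀ᶠ y in 𝓝 x, (M y).det ≠ 0 := (jac_at_det hM).continuousAt.eventually_ne h0
  let D1 : Matrix ι ι ℂ := Matrix.of fun a b => fderiv ℝ (fun y => (M y)⁻¹ a b) x v
  let D2 : Matrix ι ι ℂ := Matrix.of fun a b => fderiv ℝ (fun y => M y a b) x v
  have key : (M x)⁻¹ * D2 + D1 * M x = 0 := by
    ext a b
    have h1 := (HasFDerivAt.fun_sum (u := Finset.univ) fun c _ =>
      ((hinv a c).differentiableAt (by simp)).hasFDerivAt.fun_mul
      ((hM c b).differentiableAt (by simp)).hasFDerivAt).fderiv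
    have e : (fun y => ∑ c, (M y)⁻¹ a c * M y c b) =ᶠ[𝓝 x] fun _ => (1 : Matrix ι ι ℂ) a b :=
      hev.mono fun y hy => by
        rw [← Matrix.nonsing_inv_mul (M y) (isUnit_iff_ne_zero.2 hy), Matrix.mul_apply]
    rw [e.fderiv_eq, fderiv_fun_const] at h1
    have h2 := congrArg (fun L : E →L[ℝ] ℂ => L v) h1
    simp only [Pi.zero_apply, _root_.zero_apply, _root_.sum_apply,
      _root_.add_apply, _root_.smul_apply, smul_eq_mul] at h2
    simp only [Matrix.add_apply, Matrix.mul_apply, D1, D2, Matrix.of_apply, Matrix.zero_apply,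
      ← Finset.sum_add_distrib]
    rw [h2]
    exact Finset.sum_congr rfl fun c _ => by ring
  have h2 : D1 = -((M x)⁻¹ * D2 * (M x)⁻¹) := by
    have h3 : D1 * M x = -((M x)⁻¹ * D2) := eq_neg_of_add_eq_zero_right key
    calc D1 = D1 * M x * (M x)⁻¹ := by
          rw [Matrix.mul_assoc, Matrix.mul_nonsing_inv _ (isUnit_iff_ne_zero.2 h0), Matrix.mul_one]
      _ = _ := by rw [h3, Matrix.neg_mul]
  have h4 := congrFun (congrFun h2 i) j
  simp only [D1, D2, Matrix.of_apply, Matrix.neg_apply, Matrix.mul_apply, Finset.sum_mul] at h4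
  rw [h4, Finset.sum_comm]

theorem jac_line (A B : Matrix ι ι ℂ) (h0 : A.det ≠ 0) :
    HasDerivAt (fun s : ℝ => (A + (s : ℂ) • B).det) (A.det * (A⁻¹ * B).trace) 0 := by
  have hM : ∀ i j, ContDiffAt ℝ 1 (fun s : ℝ => (A + (s : ℂ) • B) i j) 0 := fun i j => by
    simp only [Matrix.add_apply, Matrix.smul_apply, smul_eq_mul]
    exact contDiffAt_const.add (Complex.ofRealCLM.contDiff.contDiffAt.mul contDiffAt_const)
  have hd : ∀ i j, fderiv ℝ (fun s : ℝ => (A + (s : ℂ) • B) i j) 0 1 = B i j := fun i j => by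
    have : HasDerivAt (fun s : ℝ => (A + (s : ℂ) • B) i j) (B i j) 0 := by
      simpa using ((Complex.ofRealCLM.hasDerivAt (x := 0)).mul_const (B i j)).const_add (A i j)
    exact this.deriv
  have h1 := jac_fderiv_det (M := fun s : ℝ => A + (s : ℂ) • B) hM (by simpa using h0) 1
  have h2 := ((jac_at_det (M := fun s : ℝ => A + (s : ℂ) • B) hM).differentiableAt
    (by simp)).hasDerivAt
  rw [← fderiv_apply_one_eq_deriv, h1] at h2
  simpa only [hd, Complex.ofReal_zero, zero_smul, add_zero, Matrix.trace, Matrix.diag_apply,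
    Matrix.mul_apply] using h2

end Vale.Agent.P264.U
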