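import Vale.Agent.P264.U.Lin
import Vale.Agent.P264.U.Jac

/-! P264 U/Hom (TASK): homogeneity.
`hom_euler`: differentiate `s ↦ f ((1 + s) • Z) = f Z + k log ((1+s)²)` and `s ↦ f ((1 + s I) • Z) = f Z + k log (1 + s²)`
at `s = 0`: `D f Z Z = 2 k`, `D f Z (I • Z) = 0`; `gr_dot`.
`hom_kills`: near `Z`, `∑ b, conj (gr f y b) * conj (y b) = k` (conjugate of `hom_euler`); apply `dz · a`
(`dz_congr`, `dz_sum`, `dz_mul`, `dz_conj_coord`, `cHess_eq_dz`); the other half from `cHess_herm`.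
`hom_gr`, `hom_cHess`: `fun y => f (c • y)` equals `f y + const` near `Z`; `gr_smul_arg`, `cHess_smul_arg`.
`Pot.lam`: `Matrix.det_smul`, `Real.log_mul`, smoothness by `contDiffAt_Gh`, `jac_at_det`, `ContDiffAt.log`.
WARNING: unfold `Vol`, `lap` by `unfold`/`rw`, never by defeq (the kernel tries to expand the 8x8 determinant). -/

noncomputable section

open Set Filter Topology MeasureTheory Matrix
open scoped ContDiff ComplexConjugate ComplexOrder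

namespace Vale.Agent.P264.U

theorem dir_Hom {k : ℝ} {f : V → ℝ} (h : LogHom k f) {Z : V} (hZ : Z ≠ 0) (w : ℂ) :
    fderiv ℝ f Z (w • Z) = k * (2 * w.re) := by
  have h0 : HasDerivAt (fun s : ℝ => (s : ℂ) * w) w 0 := by
    simpa using (Complex.ofRealCLM.hasDerivAt (x := 0)).mul_const w
  have h1 : HasDerivAt (fun s : ℝ => Complex.exp ((s : ℂ) * w) • Z) (w • Z) 0 := by
    simpa using h0.cexp.smul_const Z
  have hf : HasFDerivAt f (fderiv ℝ f Z) Z :=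
    ((h.at2 hZ).differentiableAt (by norm_num)).hasFDerivAt
  have h2 := hf.comp_hasDerivAt_of_eq (0 : ℝ) h1 (by simp)
  have h3 : (f ∘ fun s : ℝ => Complex.exp ((s : ℂ) * w) • Z) =
      fun s : ℝ => f Z + k * (2 * (s * w.re)) := by
    funext s
    simp only [Function.comp_apply]
    rw [h.hom _ Z (Complex.exp_ne_zero _) hZ, Complex.norm_exp, Real.log_pow, Real.log_exp]
    simp
  rw [h3] at h2
  have h4 : HasDerivAt (fun s : ℝ => f Z + k * (2 * (s * w.re))) (k * (2 * (1 * w.re))) 0 :=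
    ((((hasDerivAt_id (0 : ℝ)).mul_const w.re).const_mul 2).const_mul k).const_add (f Z)
  rw [h2.unique h4, one_mul]

theorem near_Hom {k : ℝ} {f : V → ℝ} (h : LogHom k f) {Z : V} (hZ : Z ≠ 0) {c : ℂ} (hc : c ≠ 0) :
    (fun y => f (c • y)) =ᶠ[𝓝 Z] fun y => f y + k * Real.log (‖c‖ ^ 2) := by
  filter_upwards [Om_nhds hZ] with y hy
  exact h.hom c y hc hy

theorem inv_smul_Hom {ι : Type} [Fintype ι] [DecidableEq ι] {G : Matrix ι ι ℂ} (H : Matrix ι ι ℂ)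
    (hG : G.det ≠ 0) {r : ℂ} (hr : r ≠ 0) : (r • G)⁻¹ * (r • H) = G⁻¹ * H := by
  have h1 : (r • G)⁻¹ = r⁻¹ • G⁻¹ := by
    refine Matrix.inv_eq_left_inv ?_
    rw [smul_mul_smul_comm, inv_mul_cancel₀ hr, one_smul,
      Matrix.nonsing_inv_mul G (isUnit_iff_ne_zero.2 hG)]
  rw [h1, smul_mul_smul_comm, inv_mul_cancel₀ hr, one_smul]

theorem det_re_Hom {ι : Type} [Fintype ι] [DecidableEq ι] (G : Matrix ι ι ℂ) (r : ℝ) :
    ((r : ℂ) • G).det.re = r ^ Fintype.card ι * G.det.re := by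
  rw [Matrix.det_smul, ← Complex.ofReal_pow, Complex.re_ofReal_mul]

theorem trace_at_Hom {E : Type} [NormedAddCommGroup E] [NormedSpace ℝ E] {ι : Type} [Fintype ι]
    {A B : E → Matrix ι ι ℂ} {x : E} (hA : ∀ i j, ContDiffAt ℝ ∞ (fun y => A y i j) x)
    (hB : ∀ i j, ContDiffAt ℝ ∞ (fun y => B y i j) x) :
    ContDiffAt ℝ ∞ (fun y => (A y * B y).trace.re) x := by
  have h1 : ContDiffAt ℝ ∞ (fun y => (A y * B y).trace) x := by
    simp only [Matrix.trace, Matrix.diag_apply, Matrix.mul_apply]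
    exact ContDiffAt.sum fun i _ => ContDiffAt.sum fun j _ => (hA i j).mul (hB j i)
  exact Complex.reCLM.contDiff.contDiffAt.comp x h1

theorem det_at_Hom {E : Type} [NormedAddCommGroup E] [NormedSpace ℝ E] {ι : Type} [Fintype ι]
    [DecidableEq ι] {A : E → Matrix ι ι ℂ} {x : E}
    (hA : ∀ i j, ContDiffAt ℝ ∞ (fun y => A y i j) x) :
    ContDiffAt ℝ ∞ (fun y => (A y).det.re) x :=
  Complex.reCLM.contDiff.contDiffAt.comp x (jac_at_det hA)

theorem hom_euler {k : ℝ} {f : V → ℝ} (h : LogHom k f) {Z : V} (hZ : Z ≠ 0) :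
    gr f Z ⬝ᵥ Z = (k : ℂ) := by
  have h1 := dir_Hom h hZ 1
  have h2 := dir_Hom h hZ Complex.I
  rw [one_smul] at h1
  rw [gr_dot, h1, h2]
  simp only [Complex.one_re, Complex.I_re]
  push_cast
  ring

theorem hom_kills {k : ℝ} {f : V → ℝ} (h : LogHom k f) {Z : V} (hZ : Z ≠ 0) :
    Kills Z (cHess f Z) := by
  have hc : ∀ b, DifferentiableAt ℝ (fun y : V => conj (y b)) Z := fun b =>
    Complex.conjCLE.differentiableAt.comp Z (differentiableAt_apply (𝕜 := ℝ) b Z)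
  have hg : ∀ b, DifferentiableAt ℝ (fun y : V => conj (gr f y b)) Z := fun b =>
    Complex.conjCLE.differentiableAt.comp Z
      ((contDiffAt_gr (m := 1) (h.at2 hZ) (by norm_num) b).differentiableAt (by norm_num))
  have he : (fun y : V => ∑ b, conj (gr f y b) * conj (y b)) =ᶠ[𝓝 Z] fun _ => (k : ℂ) := by
    filter_upwards [Om_nhds hZ] with y hy
    have h1 := congrArg conj (hom_euler h hy)
    rw [Complex.conj_ofReal] at h1
    rw [← h1, dotProduct, map_sum]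
    exact Finset.sum_congr rfl fun b _ => (map_mul _ _ _).symm
  have h2 : cHess f Z *ᵥ star Z = 0 := by
    funext a
    have h3 := dz_congr he a
    rw [dz_const, dz_sum (f := fun b y => conj (gr f y b) * conj (y b)) _
      (fun b _ => (hg b).mul (hc b))] at h3
    rw [Pi.zero_apply, ← h3, mulVec, dotProduct]
    refine Finset.sum_congr rfl fun b _ => ?_
    rw [dz_mul (hg b) (hc b), dz_conj_coord, mul_zero, add_zero, ← cHess_eq_dz (h.at2 hZ)]
    rfl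
  refine ⟨?_, h2⟩
  have h4 := congrArg star h2
  rwa [Matrix.star_mulVec, star_star, star_zero, (cHess_herm (h.at2 hZ)).eq] at h4

theorem hom_gr {k : ℝ} {f : V → ℝ} (h : LogHom k f) {Z : V} (hZ : Z ≠ 0) {c : ℂ} (hc : c ≠ 0) :
    gr f (c • Z) = c⁻¹ • gr f Z := by
  have h1 := gr_congr (near_Hom h hZ hc)
  rw [gr_add_const, gr_smul_arg c
    ((h.at2 (smul_ne_zero hc hZ)).differentiableAt (by norm_num))] at h1
  rw [← h1, smul_smul, inv_mul_cancel₀ hc, one_smul]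

theorem hom_cHess {k : ℝ} {f : V → ℝ} (h : LogHom k f) {Z : V} (hZ : Z ≠ 0) {c : ℂ} (hc : c ≠ 0) :
    cHess f (c • Z) = (((‖c‖ ^ 2)⁻¹ : ℝ) : ℂ) • cHess f Z := by
  have h1 := cHess_congr (near_Hom h hZ hc)
  rw [cHess_add_const, cHess_smul_arg c (h.at2 (smul_ne_zero hc hZ))] at h1
  have h2 : (‖c‖ ^ 2 : ℝ) ≠ 0 := pow_ne_zero 2 (norm_ne_zero_iff.2 hc)
  rw [← h1, smul_smul, ← Complex.ofReal_mul, inv_mul_cancel₀ h2, Complex.ofReal_one, one_smul]

theorem hom_Gh {k : ℝ} {f : V → ℝ} (h : LogHom k f) {Z : V} (hZ : Z ≠ 0) {c : ℂ} (hc : c ≠ 0) :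
    Gh f (c • Z) = (((‖c‖ ^ 2)⁻¹ : ℝ) : ℂ) • Gh f Z := by
  unfold Gh
  rw [hom_cHess h hZ hc, hom_gr h hZ hc, smul_add]
  have h1 : c⁻¹ * conj c⁻¹ = (((‖c‖ ^ 2)⁻¹ : ℝ) : ℂ) := by
    rw [Complex.mul_conj, Complex.normSq_eq_norm_sq, norm_inv, inv_pow]
  refine congrArg _ ?_
  ext a b
  simp only [vv, vecMulVec_apply, Matrix.smul_apply, Pi.smul_apply, Pi.star_apply, smul_eq_mul,
    star_mul', Complex.star_def]
  rw [← h1]
  ring

/-- `Gh Φ Z * conj Z = ∂Φ`. -/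
theorem hom_Gh_star {f : V → ℝ} (h : LogHom 1 f) {Z : V} (hZ : Z ≠ 0) :
    Gh f Z *ᵥ star Z = gr f Z := by
  unfold Gh
  rw [add_mulVec, (hom_kills h hZ).2, zero_add]
  funext a
  have h1 := congrArg conj (hom_euler h hZ)
  rw [Complex.conj_ofReal, dotProduct, map_sum, Complex.ofReal_one] at h1
  simp only [vv, mulVec, dotProduct, vecMulVec_apply, Pi.star_apply, Complex.star_def, mul_assoc]
  rw [← Finset.mul_sum]
  simp only [map_mul] at h1
  rw [h1, mul_one]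

theorem Pot.vol_at {Φ : V → ℝ} (h : Pot Φ) {Z : V} (hZ : Z ≠ 0) : ContDiffAt ℝ ∞ (Vol Φ) Z := by
  unfold Vol
  exact det_at_Hom (contDiffAt_Gh (h.hom.at hZ))

theorem Pot.lam {Φ : V → ℝ} (h : Pot Φ) : LogHom (-8) (Lam Φ) := by
  refine ⟨fun Z hZ => ?_, fun c Z hc hZ => ?_⟩
  · unfold Lam
    exact ((h.vol_at hZ).log (h.vol_pos hZ).ne').contDiffWithinAt
  · have h2 : (‖c‖ ^ 2 : ℝ) ≠ 0 := pow_ne_zero 2 (norm_ne_zero_iff.2 hc)
    have h1 : Vol Φ (c • Z) = ((‖c‖ ^ 2)⁻¹) ^ 8 * Vol Φ Z := by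
      unfold Vol
      rw [hom_Gh h.hom hZ hc, det_re_Hom, Fintype.card_fin]
    unfold Lam
    rw [h1, Real.log_mul (pow_ne_zero 8 (inv_ne_zero h2)) (h.vol_pos hZ).ne', Real.log_pow,
      Real.log_inv]
    push_cast
    ring

theorem Pot.lap_at {Φ β : V → ℝ} (h : Pot Φ) {Z : V} (hZ : Z ≠ 0) (hβ : ContDiffAt ℝ ∞ β Z) :
    ContDiffAt ℝ ∞ (lap Φ β) Z := by
  unfold lap
  exact trace_at_Hom (jac_at_inv (contDiffAt_Gh (h.hom.at hZ)) (h.det_ne hZ))
    (contDiffAt_cHess hβ le_rfl)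

theorem Pot.sc_hom {Φ : V → ℝ} (h : Pot Φ) {Z : V} (hZ : Z ≠ 0) {c : ℂ} (hc : c ≠ 0) :
    Sc Φ (c • Z) = Sc Φ Z := by
  have h2 : (‖c‖ ^ 2 : ℝ) ≠ 0 := pow_ne_zero 2 (norm_ne_zero_iff.2 hc)
  unfold Sc lap
  rw [hom_Gh h.hom hZ hc, hom_cHess h.lam hZ hc,
    inv_smul_Hom _ (h.det_ne hZ) (Complex.ofReal_ne_zero.2 (inv_ne_zero h2))]

end Vale.Agent.P264.U
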