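import Vale.Agent.P264.U.Piola
import Vale.Agent.P264.U.Hom

/-! P264 U/Adj (TASK): divergence of the cofactor matrix `cof Φ = det (Gh Φ) • (Gh Φ)⁻¹` of the cone metric.
`cof_div`: near `Z`, `M = cHess (exp Φ) = exp Φ • Gh Φ` (`cHess_exp`), so `det M * M⁻¹ b a = exp (7 Φ) * cof Φ b a`
(`Matrix.det_smul`, `Matrix.inv_smul` or `inv_eq_left_inv`). `piola`, `dz_congr`, `dz_mul`, `dz_ofReal`, `gr_exp`:
`0 = exp (7Φ) (7 ∑ a, gr Φ a * cof b a + ∑ a, dz (cof b a) a)`, and `cof *ᵥ gr Φ = det • star Z` by `hom_Gh_star`.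
`flux_div`: `dz_sum`, `dz_mul`, `dz_ofReal`, `cHess_eq_dz`; the `cof_div` term is a multiple of
`∑ b, conj (Z b) * conj (gr β Z b) = conj (gr β Z ⬝ᵥ Z) = 0` (`hom_euler`).
`flux_hom`: `hom_Gh`, `hom_gr`, `det_smul` (degrees `-16 + 2 - 1`).
WARNING: never let the kernel unfold an 8x8 determinant (use `unfold`/`rw`, `generalize`). -/

noncomputable section

open Set Filter Topology MeasureTheory Matrix
open scoped ContDiff ComplexConjugate ComplexOrder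

namespace Vale.Agent.P264.U

/-- The cofactor matrix. -/
def cof (Φ : V → ℝ) (Z : V) : Mat := (Gh Φ Z).det • (Gh Φ Z)⁻¹

/-- The flux `α cof (·, ∂bar β)`. -/
def flux (Φ α β : V → ℝ) (a : Fin 8) (Z : V) : ℂ :=
  (α Z : ℂ) * ∑ b, cof Φ Z b a * conj (gr β Z b)

theorem cof_apply_Adj (Φ : V → ℝ) (Z : V) (b a : Fin 8) :
    cof Φ Z b a = (Gh Φ Z).det * (Gh Φ Z)⁻¹ b a := by
  unfold cof
  rw [Matrix.smul_apply, smul_eq_mul]

theorem smul_cof_Adj {n : ℕ} (A : Matrix (Fin (n + 1)) (Fin (n + 1)) ℂ) {c : ℂ} (hc : c ≠ 0)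
    (hA : A.det ≠ 0) (b a : Fin (n + 1)) :
    (c • A).det * (c • A)⁻¹ b a = c ^ n * (A.det * A⁻¹ b a) := by
  have e : (c • A)⁻¹ = c⁻¹ • A⁻¹ := by
    refine Matrix.inv_eq_left_inv ?_
    rw [Matrix.smul_mul, Matrix.mul_smul, smul_smul, inv_mul_cancel₀ hc, one_smul,
      Matrix.nonsing_inv_mul _ (isUnit_iff_ne_zero.2 hA)]
  rw [e, Matrix.det_smul, Fintype.card_fin, Matrix.smul_apply, smul_eq_mul]
  field_simp
  ring

theorem cof_vec_Adj {n : ℕ} (A : Matrix (Fin n) (Fin n) ℂ) (hA : A.det ≠ 0) (w : Fin n → ℂ)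
    (b : Fin n) : ∑ a, (A *ᵥ w) a * (A.det * A⁻¹ b a) = A.det * w b := by
  have e : (A⁻¹ *ᵥ (A *ᵥ w)) b = w b := by
    rw [Matrix.mulVec_mulVec, Matrix.nonsing_inv_mul _ (isUnit_iff_ne_zero.2 hA),
      Matrix.one_mulVec]
  rw [← e]
  generalize A *ᵥ w = v
  simp only [Matrix.mulVec, dotProduct, Finset.mul_sum]
  exact Finset.sum_congr rfl fun a _ => by ring

theorem cof_at {Φ : V → ℝ} (h : Pot Φ) {Z : V} (hZ : Z ≠ 0) (b a : Fin 8) :
    ContDiffAt ℝ ∞ (fun y => cof Φ y b a) Z := by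
  have e : (fun y => cof Φ y b a) = fun y => (Gh Φ y).det * (Gh Φ y)⁻¹ b a :=
    funext fun y => cof_apply_Adj Φ y b a
  rw [e]
  have hG := fun i j => contDiffAt_Gh (h.hom.at hZ) i j
  exact (jac_at_det hG).mul (jac_at_inv hG (h.det_ne hZ) b a)

theorem cof_herm {Φ : V → ℝ} (h : Pot Φ) {Z : V} (hZ : Z ≠ 0) : (cof Φ Z).IsHermitian := by
  have h1 : ((Gh Φ Z)⁻¹).IsHermitian := (h.pos Z hZ).1.inv
  unfold cof
  rw [h.det_eq hZ]
  generalize Vol Φ Z = t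
  unfold Matrix.IsHermitian at h1 ⊢
  rw [Matrix.conjTranspose_smul, h1, Complex.star_def, Complex.conj_ofReal]

theorem inf_ne_Adj : (∞ : WithTop ℕ∞) ≠ 0 := by simp

theorem real_at_Adj {u : V → ℝ} {Z : V} (hu : ContDiffAt ℝ ∞ u Z) :
    ContDiffAt ℝ ∞ (fun y => (u y : ℂ)) Z :=
  Complex.ofRealCLM.contDiff.contDiffAt.comp Z hu

theorem cgr_at_Adj {u : V → ℝ} {Z : V} (hu : ContDiffAt ℝ ∞ u Z) (b : Fin 8) :
    ContDiffAt ℝ ∞ (fun y => conj (gr u y b)) Z :=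
  Complex.conjCLE.contDiff.contDiffAt.comp Z (contDiffAt_gr (m := ∞) hu (le_of_eq rfl) b)

theorem cof_div {Φ : V → ℝ} (h : Pot Φ) {Z : V} (hZ : Z ≠ 0) (b : Fin 8) :
    ∑ a, dz (fun y => cof Φ y b a) a Z = -7 * (Gh Φ Z).det * conj (Z b) := by
  have hΦ := h.hom.at hZ
  have hne : ∀ x : ℝ, ((Real.exp x : ℝ) : ℂ) ≠ 0 := fun x =>
    Complex.ofReal_ne_zero.2 (Real.exp_pos x).ne'
  have h0 : (cHess (fun y => Real.exp (Φ y)) Z).det ≠ 0 := by
    rw [cHess_exp (h.hom.at2 hZ), Matrix.det_smul]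
    exact mul_ne_zero (pow_ne_zero _ (hne _)) (h.det_ne hZ)
  have hp := piola (u := fun y => Real.exp (Φ y)) hΦ.exp h0 b
  have h7 : ContDiffAt ℝ ∞ (fun y => Real.exp (7 * Φ y)) Z := (contDiffAt_const.mul hΦ).exp
  have ev : ∀ a, (fun y => (cHess (fun y => Real.exp (Φ y)) y).det *
      (cHess (fun y => Real.exp (Φ y)) y)⁻¹ b a) =ᶠ[𝓝 Z]
      fun y => ((Real.exp (7 * Φ y) : ℝ) : ℂ) * cof Φ y b a := fun a => by
    filter_upwards [Om_nhds hZ] with y hy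
    rw [cHess_exp (h.hom.at2 hy), smul_cof_Adj (n := 7) _ (hne _) (h.det_ne hy), cof_apply_Adj,
      ← Complex.ofReal_pow, ← Real.exp_nat_mul]
    norm_num
  have e1 : ∀ a, dz (fun y => (cHess (fun y => Real.exp (Φ y)) y).det *
      (cHess (fun y => Real.exp (Φ y)) y)⁻¹ b a) a Z = ((Real.exp (7 * Φ Z) : ℝ) : ℂ) *
        (7 * (gr Φ Z a * cof Φ Z b a) + dz (fun y => cof Φ y b a) a Z) := fun a => by
    rw [dz_congr (ev a), dz_mul ((real_at_Adj h7).differentiableAt inf_ne_Adj)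
      ((cof_at h hZ b a).differentiableAt inf_ne_Adj),
      dz_ofReal (h7.differentiableAt inf_ne_Adj), gr_exp (hΦ.differentiableAt inf_ne_Adj),
      Pi.smul_apply, smul_eq_mul, Complex.ofReal_mul, Complex.ofReal_ofNat]
    ring
  rw [Finset.sum_congr rfl fun a _ => e1 a, ← Finset.mul_sum, Finset.sum_add_distrib,
    ← Finset.mul_sum] at hp
  have e2 : ∑ a, gr Φ Z a * cof Φ Z b a = (Gh Φ Z).det * conj (Z b) := by
    have := cof_vec_Adj (Gh Φ Z) (h.det_ne hZ) (star Z) b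
    rw [hom_Gh_star h.hom hZ, Pi.star_apply, Complex.star_def] at this
    rw [← this]
    exact Finset.sum_congr rfl fun a _ => by rw [cof_apply_Adj]
  rw [e2] at hp
  have := (mul_eq_zero.1 hp).resolve_left (hne _)
  linear_combination this

theorem flux_at_Adj {Φ β : V → ℝ} (h : Pot Φ) (hβ : LogHom 0 β) (a : Fin 8) {Z : V} (hZ : Z ≠ 0)
    (b : Fin 8) : ContDiffAt ℝ ∞ (fun y => cof Φ y b a * conj (gr β y b)) Z :=
  (cof_at h hZ b a).mul (cgr_at_Adj (hβ.at hZ) b)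

theorem flux_smooth {Φ α β : V → ℝ} (h : Pot Φ) (hα : LogHom 0 α) (hβ : LogHom 0 β) (a : Fin 8) :
    ContDiffOn ℝ ∞ (flux Φ α β a) Om := fun Z hZ => by
  refine ContDiffAt.contDiffWithinAt ?_
  unfold flux
  exact (real_at_Adj (hα.at hZ)).mul (ContDiffAt.sum fun b _ => flux_at_Adj h hβ a hZ b)

theorem flux_hom {Φ α β : V → ℝ} (h : Pot Φ) (hα : LogHom 0 α) (hβ : LogHom 0 β) (a : Fin 8)
    (r : ℝ) (Z : V) (hr : 0 < r) (hZ : Z ≠ 0) :
    flux Φ α β a ((r : ℂ) • Z) = ((r : ℂ) ^ 15)⁻¹ * flux Φ α β a Z := by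
  have hr' : (r : ℂ) ≠ 0 := Complex.ofReal_ne_zero.2 hr.ne'
  have hc : (((‖(r : ℂ)‖ ^ 2)⁻¹ : ℝ) : ℂ) = ((r : ℂ) ^ 2)⁻¹ := by
    rw [Complex.norm_real, Real.norm_eq_abs, sq_abs]
    push_cast
    rfl
  have e1 : ∀ b, cof Φ ((r : ℂ) • Z) b a = (((r : ℂ) ^ 2)⁻¹) ^ 7 * cof Φ Z b a := fun b => by
    rw [cof_apply_Adj, cof_apply_Adj, hom_Gh h.hom hZ hr', hc,
      smul_cof_Adj (n := 7) _ (inv_ne_zero (pow_ne_zero _ hr')) (h.det_ne hZ)]
  have e2 : ∀ b, conj (gr β ((r : ℂ) • Z) b) = (r : ℂ)⁻¹ * conj (gr β Z b) := fun b => by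
    rw [hom_gr hβ hZ hr', Pi.smul_apply, smul_eq_mul, map_mul, map_inv₀, Complex.conj_ofReal]
  unfold flux
  rw [hα.hom _ _ hr' hZ, zero_mul, add_zero, mul_left_comm, Finset.mul_sum _ _ (_⁻¹ : ℂ)]
  refine congrArg _ (Finset.sum_congr rfl fun b _ => ?_)
  rw [e1, e2]
  generalize cof Φ Z b a = x
  generalize conj (gr β Z b) = y
  field_simp

theorem flux_div {Φ α β : V → ℝ} (h : Pot Φ) (hα : LogHom 0 α) (hβ : LogHom 0 β) {Z : V}
    (hZ : Z ≠ 0) : ∑ a, dz (flux Φ α β a) a Z = (α Z : ℂ) * (cof Φ Z * cHess β Z).trace +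
      ∑ a, ∑ b, gr α Z a * cof Φ Z b a * conj (gr β Z b) := by
  have e1 : ∀ a, dz (flux Φ α β a) a Z = ∑ b, gr α Z a * cof Φ Z b a * conj (gr β Z b) +
      (α Z : ℂ) * (∑ b, dz (fun y => cof Φ y b a) a Z * conj (gr β Z b) +
        ∑ b, cof Φ Z b a * cHess β Z a b) := fun a => by
    have e : flux Φ α β a = fun y => (α y : ℂ) * ∑ b, cof Φ y b a * conj (gr β y b) := by
      funext y
      rw [flux]
    rw [e, dz_mul ((real_at_Adj (hα.at hZ)).differentiableAt inf_ne_Adj)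
      ((ContDiffAt.sum fun b _ => flux_at_Adj h hβ a hZ b).differentiableAt inf_ne_Adj),
      dz_ofReal ((hα.at hZ).differentiableAt inf_ne_Adj),
      dz_sum _ fun b _ => (flux_at_Adj h hβ a hZ b).differentiableAt inf_ne_Adj,
      ← Finset.sum_add_distrib, Finset.mul_sum]
    refine congrArg₂ _ (Finset.sum_congr rfl fun b _ => (mul_assoc _ _ _).symm)
      (congrArg _ (Finset.sum_congr rfl fun b _ => ?_))
    rw [dz_mul ((cof_at h hZ b a).differentiableAt inf_ne_Adj)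
      ((cgr_at_Adj (hβ.at hZ) b).differentiableAt inf_ne_Adj), cHess_eq_dz (hβ.at2 hZ)]
  have e2 : ∑ a, ∑ b, dz (fun y => cof Φ y b a) a Z * conj (gr β Z b) = 0 := by
    rw [Finset.sum_comm]
    have e3 : ∀ b, ∑ a, dz (fun y => cof Φ y b a) a Z * conj (gr β Z b) =
        -7 * (Gh Φ Z).det * conj (gr β Z b * Z b) := fun b => by
      rw [← Finset.sum_mul, cof_div h hZ b, map_mul]
      ring
    have e4 : ∑ b, gr β Z b * Z b = 0 := by
      have := hom_euler hβ hZ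
      rwa [Complex.ofReal_zero, dotProduct] at this
    rw [Finset.sum_congr rfl fun b _ => e3 b, ← Finset.mul_sum, ← map_sum, e4, map_zero, mul_zero]
  have e5 : ∑ a, ∑ b, cof Φ Z b a * cHess β Z a b = (cof Φ Z * cHess β Z).trace := by
    generalize cof Φ Z = A
    generalize cHess β Z = B
    rw [Finset.sum_comm]
    simp only [Matrix.trace, Matrix.diag, Matrix.mul_apply]
  rw [Finset.sum_congr rfl fun a _ => e1 a, Finset.sum_add_distrib, ← Finset.mul_sum,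
    Finset.sum_add_distrib, e2, e5, zero_add, add_comm]

end Vale.Agent.P264.U
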