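import Vale.Agent.P264.U.Defs

/-! P264 U/Calc (TASK): Wirtinger calculus.
`gr_dot`: `w = ∑ a, (w a).re • single a 1 + (w a).im • single a I`, linearity of `fderiv ℝ u z`.
`cHess_eq_dz`: `conj (gr u y b) = (1/2) (D u y (single b 1) + I D u y (single b I))`; `fderiv` of `ofReal ∘ g` is
`ofReal (fderiv g)` (`Complex.ofRealCLM.hasFDerivAt.comp`), `d2` is by definition `fderiv` of `y ↦ fderiv u y w`.
`cHess_herm`: `d2 u z v w = d2 u z w v` (`ContDiffAt.isSymmSndFDerivAt`, `fderiv_clm_apply`).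
`cHess_exp`: `gr_exp` near `z` (`ContDiffAt.eventually`), `cHess_eq_dz`, `dz_congr`, `dz_mul`, `dz_ofReal`.
`dz_cHess_symm`: near `z`, `cHess u y c d = dz g c y` with `g y = conj (gr u y d)` of class `C²`; `dz_comm`. -/

noncomputable section

open Set Filter Topology MeasureTheory Matrix
open scoped ContDiff ComplexConjugate ComplexOrder

namespace Vale.Agent.P264.U

variable {n : ℕ}

theorem ofReal_Calc {u : (Fin n → ℂ) → ℝ} {z : Fin n → ℂ} (hu : DifferentiableAt ℝ u z)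
    (w : Fin n → ℂ) : fderiv ℝ (fun y => (u y : ℂ)) z w = ((fderiv ℝ u z w : ℝ) : ℂ) :=
  DFunLike.congr_fun (Complex.ofRealCLM.hasFDerivAt.comp z hu.hasFDerivAt).fderiv w

theorem dw_Calc {F : Type} [NormedAddCommGroup F] [NormedSpace ℝ F] {f : (Fin n → ℂ) → F}
    {z : Fin n → ℂ} {m k : WithTop ℕ∞} (hf : ContDiffAt ℝ k f z) (h : m + 1 ≤ k) (w : Fin n → ℂ) :
    ContDiffAt ℝ m (fun y => fderiv ℝ f y w) z :=
  (hf.fderiv_right h).clm_apply contDiffAt_const

theorem dd_Calc {F : Type} [NormedAddCommGroup F] [NormedSpace ℝ F] {f : (Fin n → ℂ) → F}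
    {z : Fin n → ℂ} (hf : ContDiffAt ℝ 2 f z) (w : Fin n → ℂ) :
    DifferentiableAt ℝ (fun y => fderiv ℝ f y w) z :=
  (dw_Calc (m := 1) hf (by norm_num) w).differentiableAt one_ne_zero

theorem sym_Calc {F : Type} [NormedAddCommGroup F] [NormedSpace ℝ F] {f : (Fin n → ℂ) → F}
    {z : Fin n → ℂ} (hf : ContDiffAt ℝ 2 f z) (v w : Fin n → ℂ) :
    fderiv ℝ (fun y => fderiv ℝ f y w) z v = fderiv ℝ (fun y => fderiv ℝ f y v) z w := by
  have h := (hf.fderiv_right (m := 1) (by norm_num)).differentiableAt one_ne_zero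
  rw [fderiv_clm_apply h (differentiableAt_const _), fderiv_clm_apply h (differentiableAt_const _)]
  simpa using hf.isSymmSndFDerivAt (by simp) v w

theorem lin_Calc {f g : (Fin n → ℂ) → ℂ} {z : Fin n → ℂ} (hf : DifferentiableAt ℝ f z)
    (hg : DifferentiableAt ℝ g z) (c d : ℂ) (a : Fin n) :
    dz (fun y => c * (f y - d * g y)) a z = c * (dz f a z - d * dz g a z) := by
  rw [dz, ((hf.hasFDerivAt.fun_sub (hg.hasFDerivAt.const_mul d)).const_mul c).fderiv]
  simp [dz]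
  ring

theorem re_Calc {u : (Fin n → ℂ) → ℝ} {z : Fin n → ℂ} {m : WithTop ℕ∞} (hu : ContDiffAt ℝ m u z) :
    ContDiffAt ℝ m (fun y => (u y : ℂ)) z :=
  Complex.ofRealCLM.contDiff.contDiffAt.comp z hu

theorem conj_Calc {f : (Fin n → ℂ) → ℂ} {z : Fin n → ℂ} {m : WithTop ℕ∞}
    (hf : ContDiffAt ℝ m f z) : ContDiffAt ℝ m (fun y => conj (f y)) z :=
  Complex.conjCLE.contDiff.contDiffAt.comp z hf

theorem dz_congr {f g : (Fin n → ℂ) → ℂ} {z : Fin n → ℂ} (h : f =ᶠ[𝓝 z] g) (a : Fin n) :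
    dz f a z = dz g a z := by
  rw [dz, dz, h.fderiv_eq]

theorem dz_const (c : ℂ) (a : Fin n) (z : Fin n → ℂ) : dz (fun _ => c) a z = 0 := by
  simp [dz]

theorem dz_mul {f g : (Fin n → ℂ) → ℂ} {z : Fin n → ℂ} (hf : DifferentiableAt ℝ f z)
    (hg : DifferentiableAt ℝ g z) (a : Fin n) :
    dz (fun y => f y * g y) a z = dz f a z * g z + f z * dz g a z := by
  rw [dz, fderiv_fun_mul hf hg]
  simp [dz]
  ring

theorem dz_sum {ι : Type} (s : Finset ι) {f : ι → (Fin n → ℂ) → ℂ} {z : Fin n → ℂ}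
    (hf : ∀ i ∈ s, DifferentiableAt ℝ (f i) z) (a : Fin n) :
    dz (fun y => ∑ i ∈ s, f i y) a z = ∑ i ∈ s, dz (f i) a z := by
  rw [dz, fderiv_fun_sum hf]
  simp [dz, Finset.mul_sum, mul_sub]

theorem dz_ofReal {u : (Fin n → ℂ) → ℝ} {z : Fin n → ℂ} (hu : DifferentiableAt ℝ u z) (a : Fin n) :
    dz (fun y => (u y : ℂ)) a z = gr u z a := by
  rw [dz, ofReal_Calc hu, ofReal_Calc hu, gr]

theorem dz_conj_coord (a b : Fin n) (z : Fin n → ℂ) : dz (fun y => conj (y b)) a z = 0 := by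
  have h : HasFDerivAt (fun y : Fin n → ℂ => conj (y b)) _ z :=
    Complex.conjCLE.hasFDerivAt.comp z (hasFDerivAt_apply (𝕜 := ℝ) b z)
  rw [dz, h.fderiv]
  by_cases e : b = a <;> simp [e]

theorem dz_comm {f : (Fin n → ℂ) → ℂ} {z : Fin n → ℂ} (hf : ContDiffAt ℝ 2 f z) (a c : Fin n) :
    dz (dz f c) a z = dz (dz f a) c z := by
  have e : ∀ c, dz f c = fun y => (1 / 2 : ℂ) * (fderiv ℝ f y (Pi.single c 1) -
    Complex.I * fderiv ℝ f y (Pi.single c Complex.I)) := fun _ => rfl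
  rw [e c, e a, lin_Calc (dd_Calc hf _) (dd_Calc hf _), lin_Calc (dd_Calc hf _) (dd_Calc hf _)]
  simp only [dz, sym_Calc hf (Pi.single a _) (Pi.single c _)]
  ring

theorem gr_dot (u : (Fin n → ℂ) → ℝ) (z w : Fin n → ℂ) : gr u z ⬝ᵥ w =
    (1 / 2 : ℂ) * (((fderiv ℝ u z w : ℝ) : ℂ) -
      Complex.I * ((fderiv ℝ u z (Complex.I • w) : ℝ) : ℂ)) := by
  have e : ∀ w : Fin n → ℂ, fderiv ℝ u z w = ∑ a, ((w a).re * fderiv ℝ u z (Pi.single a 1) +
      (w a).im * fderiv ℝ u z (Pi.single a Complex.I)) := fun w => by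
    simp only [← smul_eq_mul, ← map_smul, ← map_add, ← map_sum]
    congr 1
    ext b
    simp [Pi.single_apply, Finset.sum_add_distrib]
  rw [e w, e (Complex.I • w), dotProduct]
  simp only [Complex.ofReal_sum, Finset.mul_sum, ← Finset.sum_sub_distrib]
  refine Finset.sum_congr rfl fun a _ => ?_
  apply Complex.ext <;> simp [gr] <;> ring

theorem gr_congr {u w : (Fin n → ℂ) → ℝ} {z : Fin n → ℂ} (h : u =ᶠ[𝓝 z] w) : gr u z = gr w z := by
  funext a
  rw [gr, gr, h.fderiv_eq]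

theorem cHess_congr {u w : (Fin n → ℂ) → ℝ} {z : Fin n → ℂ} (h : u =ᶠ[𝓝 z] w) :
    cHess u z = cHess w z := by
  have e : ∀ v v', d2 u z v v' = d2 w z v v' := fun v v' => by
    rw [d2, d2, EventuallyEq.fderiv_eq (h.fderiv.mono fun y hy => by rw [hy])]
  funext a b
  simp only [cHess, e]

theorem gr_add_const (u : (Fin n → ℂ) → ℝ) (c : ℝ) (z : Fin n → ℂ) :
    gr (fun y => u y + c) z = gr u z := by
  funext a
  simp only [gr, fderiv_add_const]

theorem cHess_add_const (u : (Fin n → ℂ) → ℝ) (c : ℝ) (z : Fin n → ℂ) :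
    cHess (fun y => u y + c) z = cHess u z := by
  funext a b
  simp only [cHess, d2, fderiv_add_const]

theorem cHess_const (c : ℝ) (z : Fin n → ℂ) : cHess (fun _ => c) z = 0 := by
  funext a b
  simp [cHess, d2]

theorem cHess_sub {u w : (Fin n → ℂ) → ℝ} {z : Fin n → ℂ} (hu : ContDiffAt ℝ 2 u z)
    (hw : ContDiffAt ℝ 2 w z) : cHess (fun y => u y - w y) z = cHess u z - cHess w z := by
  have e : ∀ v v', d2 (fun y => u y - w y) z v v' = d2 u z v v' - d2 w z v v' := fun v v' => by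
    rw [d2, d2, d2, ← _root_.sub_apply, ← fderiv_fun_sub (dd_Calc hu _) (dd_Calc hw _)]
    refine DFunLike.congr_fun (EventuallyEq.fderiv_eq ?_) v
    filter_upwards [hu.eventually (by simp), hw.eventually (by simp)] with y h1 h2
    rw [fderiv_fun_sub (h1.differentiableAt two_ne_zero) (h2.differentiableAt two_ne_zero),
      _root_.sub_apply]
  funext a b
  simp only [cHess, e, Matrix.sub_apply, Complex.ofReal_sub]
  ring

theorem contDiffAt_gr {u : (Fin n → ℂ) → ℝ} {z : Fin n → ℂ} {m k : WithTop ℕ∞}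
    (hu : ContDiffAt ℝ k u z) (h : m + 1 ≤ k) (a : Fin n) :
    ContDiffAt ℝ m (fun y => gr u y a) z := by
  exact contDiffAt_const.mul ((re_Calc (dw_Calc hu h _)).sub
    (contDiffAt_const.mul (re_Calc (dw_Calc hu h _))))

theorem contDiffAt_cHess {u : (Fin n → ℂ) → ℝ} {z : Fin n → ℂ} {m k : WithTop ℕ∞}
    (hu : ContDiffAt ℝ k u z) (h : m + 1 + 1 ≤ k) (a b : Fin n) :
    ContDiffAt ℝ m (fun y => cHess u y a b) z := by
  have e : ∀ v w, ContDiffAt ℝ m (fun y => ((d2 u y v w : ℝ) : ℂ)) z := fun v w =>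
    re_Calc (dw_Calc (dw_Calc hu h w) le_rfl v)
  exact contDiffAt_const.mul (((e _ _).add (e _ _)).add (contDiffAt_const.mul ((e _ _).sub (e _ _))))

theorem contDiffAt_Gh {u : (Fin n → ℂ) → ℝ} {z : Fin n → ℂ} (hu : ContDiffAt ℝ ∞ u z)
    (a b : Fin n) : ContDiffAt ℝ ∞ (fun y => Gh u y a b) z := by
  exact (contDiffAt_cHess hu (by simp) a b).add ((contDiffAt_gr hu (by simp) a).mul
    (conj_Calc (contDiffAt_gr hu (by simp) b)))

theorem cHess_eq_dz {u : (Fin n → ℂ) → ℝ} {z : Fin n → ℂ} (hu : ContDiffAt ℝ 2 u z) (a b : Fin n) :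
    cHess u z a b = dz (fun y => conj (gr u y b)) a z := by
  have e : (fun y => conj (gr u y b)) = fun y => (1 / 2 : ℂ) * ((fderiv ℝ u y (Pi.single b 1) : ℝ) -
      -Complex.I * (fderiv ℝ u y (Pi.single b Complex.I) : ℝ)) := funext fun y => by simp [gr, map_ofNat]
  have d : ∀ w, DifferentiableAt ℝ (fun y => ((fderiv ℝ u y w : ℝ) : ℂ)) z := fun w =>
    (re_Calc (dw_Calc (m := 1) hu (by norm_num) w)).differentiableAt one_ne_zero
  rw [e, lin_Calc (d _) (d _), dz_ofReal (dd_Calc hu _), dz_ofReal (dd_Calc hu _)]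
  apply Complex.ext <;> simp [cHess, gr, d2] <;> ring

theorem cHess_herm {u : (Fin n → ℂ) → ℝ} {z : Fin n → ℂ} (hu : ContDiffAt ℝ 2 u z) :
    (cHess u z).IsHermitian := by
  ext a b
  have e := sym_Calc hu
  apply Complex.ext <;> simp [cHess, d2, e (Pi.single a _) (Pi.single b _)]

theorem gr_exp {u : (Fin n → ℂ) → ℝ} {z : Fin n → ℂ} (hu : DifferentiableAt ℝ u z) (k : ℝ) :
    gr (fun y => Real.exp (k * u y)) z = ((k * Real.exp (k * u z) : ℝ) : ℂ) • gr u z := by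
  funext a
  rw [gr, (hu.hasFDerivAt.const_mul k).exp.fderiv]
  simp [gr]
  ring

theorem cHess_exp {u : (Fin n → ℂ) → ℝ} {z : Fin n → ℂ} (hu : ContDiffAt ℝ 2 u z) :
    cHess (fun y => Real.exp (u y)) z = ((Real.exp (u z) : ℝ) : ℂ) • Gh u z := by
  funext a b
  have d := hu.differentiableAt two_ne_zero
  have e : (fun y => conj (gr (fun y => Real.exp (u y)) y b)) =ᶠ[𝓝 z]
      fun y => ((Real.exp (u y) : ℝ) : ℂ) * conj (gr u y b) := by
    filter_upwards [hu.eventually (by simp)] with y hy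
    have := gr_exp (hy.differentiableAt two_ne_zero) 1
    simp only [one_mul] at this
    rw [this, Pi.smul_apply, smul_eq_mul, map_mul, Complex.conj_ofReal]
  have g := gr_exp d 1
  simp only [one_mul] at g
  rw [cHess_eq_dz hu.exp, dz_congr e, dz_mul ((re_Calc hu.exp).differentiableAt two_ne_zero)
    ((conj_Calc (contDiffAt_gr (m := 1) hu (by norm_num) b)).differentiableAt one_ne_zero),
    dz_ofReal d.exp, g, ← cHess_eq_dz hu]
  simp only [Gh, vv, Matrix.smul_apply, Matrix.add_apply, vecMulVec_apply, Pi.smul_apply,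
    smul_eq_mul, Pi.star_apply, RCLike.star_def]
  ring

theorem dz_cHess_symm {u : (Fin n → ℂ) → ℝ} {z : Fin n → ℂ} (hu : ContDiffAt ℝ ∞ u z)
    (a c d : Fin n) : dz (fun y => cHess u y c d) a z = dz (fun y => cHess u y a d) c z := by
  have h3 := hu.of_le (nat_le_inf 3)
  have e : ∀ c, (fun y => cHess u y c d) =ᶠ[𝓝 z] dz (fun y => conj (gr u y d)) c := fun c => by
    filter_upwards [(hu.of_le (nat_le_inf 2)).eventually (by simp)] with y hy
    exact cHess_eq_dz hy c d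
  rw [dz_congr (e c), dz_congr (e a),
    dz_comm (conj_Calc (contDiffAt_gr (m := 2) h3 (by norm_num) d))]

end Vale.Agent.P264.U
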