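import Vale.Agent.P264.A.Basic

/-! P264 block U: definitions (owner helper76). Everything lives on the cone `ℂ^8 ∖ 0`.
A potential is `Φ = log |Z|² + ψ`; `Gh Φ = ∂∂bar Φ + ∂Φ (∂Φ)^*` is positive definite, `Vol Φ = det (Gh Φ)`,
`Sc Φ` is the scalar curvature. `II f` is the integral over projective space of the density `f`. -/

noncomputable section

open Set Filter Topology MeasureTheory Matrix
open scoped ContDiff ComplexConjugate ComplexOrder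

namespace Vale.Agent.P264.U

abbrev V := Fin 8 → ℂ

abbrev Mat := Matrix (Fin 8) (Fin 8) ℂ

/-- The punctured space. -/
def Om : Set V := {Z | Z ≠ 0}

/-- Space-time domain. -/
def Dom : Set (ℝ × V) := Ici 0 ×ˢ Om

/-- The Wirtinger derivative `d/dz_a` of a complex valued function. -/
def dz {n : ℕ} (f : (Fin n → ℂ) → ℂ) (a : Fin n) (z : Fin n → ℂ) : ℂ :=
  (1 / 2 : ℂ) * (fderiv ℝ f z (Pi.single a 1) - Complex.I * fderiv ℝ f z (Pi.single a Complex.I))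

/-- The vector of the derivatives `d/dz_a` of a real valued function. -/
def gr {n : ℕ} (u : (Fin n → ℂ) → ℝ) (z : Fin n → ℂ) : Fin n → ℂ := fun a =>
  (1 / 2 : ℂ) * (((fderiv ℝ u z (Pi.single a 1) : ℝ) : ℂ)
    - Complex.I * ((fderiv ℝ u z (Pi.single a Complex.I) : ℝ) : ℂ))

/-- The rank one matrix `v v^*`. -/
def vv {n : ℕ} (v : Fin n → ℂ) : Matrix (Fin n) (Fin n) ℂ := vecMulVec v (star v)

/-- The cone metric, `exp (-Φ) ∂∂bar exp Φ`. -/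
def Gh {n : ℕ} (Φ : (Fin n → ℂ) → ℝ) (Z : Fin n → ℂ) : Matrix (Fin n) (Fin n) ℂ :=
  cHess Φ Z + vv (gr Φ Z)

/-- The volume density. -/
def Vol (Φ : V → ℝ) (Z : V) : ℝ := (Gh Φ Z).det.re

/-- Its logarithm. -/
def Lam (Φ : V → ℝ) (Z : V) : ℝ := Real.log (Vol Φ Z)

/-- The Laplacian. -/
def lap (Φ β : V → ℝ) (Z : V) : ℝ := ((Gh Φ Z)⁻¹ * cHess β Z).trace.re

/-- The squared norm of the complex Hessian. -/
def tr2 (Φ β : V → ℝ) (Z : V) : ℝ :=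
  ((Gh Φ Z)⁻¹ * cHess β Z * (Gh Φ Z)⁻¹ * cHess β Z).trace.re

/-- The scalar curvature. -/
def Sc (Φ : V → ℝ) (Z : V) : ℝ := -lap Φ (Lam Φ) Z

/-- `f` is smooth and `f (c Z) = f Z + k log |c|²`. -/
structure LogHom (k : ℝ) (f : V → ℝ) : Prop where
  smooth : ContDiffOn ℝ ∞ f Om
  hom : ∀ (c : ℂ) (Z : V), c ≠ 0 → Z ≠ 0 → f (c • Z) = f Z + k * Real.log (‖c‖ ^ 2)

/-- The sesquilinear form `K` vanishes on `Z` in both slots. -/
def Kills {n : ℕ} (Z : Fin n → ℂ) (K : Matrix (Fin n) (Fin n) ℂ) : Prop :=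
  Z ᵥ* K = 0 ∧ K *ᵥ star Z = 0

/-- A Kaehler potential on the cone. -/
structure Pot (Φ : V → ℝ) : Prop where
  hom : LogHom 1 Φ
  pos : ∀ Z, Z ≠ 0 → (Gh Φ Z).PosDef

/-- Smooth in space-time, up to `t = 0`. -/
def Sm (f : ℝ → V → ℝ) : Prop := ContDiffOn ℝ ∞ (fun p : ℝ × V => f p.1 p.2) Dom

/-- The Calabi flow on the cone. -/
structure Flow (κ : ℝ) (Φ : ℝ → V → ℝ) : Prop where
  smooth : Sm Φ
  pot : ∀ t, 0 ≤ t → Pot (Φ t)
  eqn : ∀ t, 0 < t → ∀ Z, Z ≠ 0 → HasDerivAt (fun τ => Φ τ Z) (Sc (Φ t) Z - κ) t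

/-- The radial weight, positive exactly on `(1, 4)`. -/
def eta (x : ℝ) : ℝ := expNegInvGlue (x - 1) * expNegInvGlue (4 - x)

/-- The compact shell. -/
def Kc : Set V := {Z | 1 ≤ nsq Z ∧ nsq Z ≤ 4}

/-- The integral. -/
def II (f : V → ℝ) : ℝ := ∫ Z in Kc, eta (nsq Z) * f Z

theorem isOpen_Om : IsOpen Om := isOpen_ne

theorem Om_nhds {Z : V} (hZ : Z ≠ 0) : Om ∈ 𝓝 Z := isOpen_Om.mem_nhds hZ

theorem LogHom.at {k : ℝ} {f : V → ℝ} (h : LogHom k f) {Z : V} (hZ : Z ≠ 0) :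
    ContDiffAt ℝ ∞ f Z := h.smooth.contDiffAt (Om_nhds hZ)

theorem nat_le_inf (k : ℕ) : (k : WithTop ℕ∞) ≤ ∞ := by exact_mod_cast le_top

theorem LogHom.at2 {k : ℝ} {f : V → ℝ} (h : LogHom k f) {Z : V} (hZ : Z ≠ 0) :
    ContDiffAt ℝ 2 f Z := (h.at hZ).of_le (nat_le_inf 2)

theorem LogHom.sub {k l : ℝ} {f g : V → ℝ} (hf : LogHom k f) (hg : LogHom l g) :
    LogHom (k - l) (fun Z => f Z - g Z) :=
  ⟨hf.smooth.sub hg.smooth, fun c Z hc hZ => by rw [hf.hom c Z hc hZ, hg.hom c Z hc hZ]; ring⟩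

theorem LogHom.sub0 {k : ℝ} {f g : V → ℝ} (hf : LogHom k f) (hg : LogHom k g) :
    LogHom 0 (fun Z => f Z - g Z) := by
  simpa using hf.sub hg

theorem logHom_one : LogHom 0 (fun _ => 1) := ⟨contDiffOn_const, fun _ _ _ _ => by simp⟩

theorem contDiff_nsq_U {n : ℕ} : ContDiff ℝ ∞ (nsq : (Fin n → ℂ) → ℝ) := by
  have : (nsq : (Fin n → ℂ) → ℝ) = fun z => ∑ k, ((z k).re ^ 2 + (z k).im ^ 2) := by
    funext z
    simp only [nsq, Complex.sq_norm, Complex.normSq_apply]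
    exact Finset.sum_congr rfl fun k _ => by ring
  rw [this]
  refine ContDiff.sum fun k _ => ContDiff.add (ContDiff.pow ?_ 2) (ContDiff.pow ?_ 2)
  · exact Complex.reCLM.contDiff.comp (contDiff_apply ℝ ℂ k)
  · exact Complex.imCLM.contDiff.comp (contDiff_apply ℝ ℂ k)

theorem nsq_smul_U {n : ℕ} (c : ℂ) (z : Fin n → ℂ) : nsq (c • z) = ‖c‖ ^ 2 * nsq z := by
  simp only [nsq, Pi.smul_apply, smul_eq_mul, norm_mul, mul_pow, Finset.mul_sum]

theorem nsq_pos_U {n : ℕ} {z : Fin n → ℂ} (hz : z ≠ 0) : 0 < nsq z := by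
  obtain ⟨k, hk⟩ := Function.ne_iff.1 hz
  exact Finset.sum_pos' (fun _ _ => by positivity)
    ⟨k, Finset.mem_univ _, pow_pos (norm_pos_iff.2 hk) 2⟩

theorem Kc_sub : Kc ⊆ Om := fun Z hZ h0 => by
  have h1 := hZ.1
  rw [h0] at h1
  simp [nsq] at h1
  linarith

theorem isCompact_Kc : IsCompact Kc := by
  have hc := (contDiff_nsq_U (n := 8)).continuous
  refine Metric.isCompact_of_isClosed_isBounded
    ((isClosed_le continuous_const hc).inter (isClosed_le hc continuous_const)) ?_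
  refine (Metric.isBounded_closedBall (x := (0 : V)) (r := 2)).subset fun Z hZ => ?_
  rw [mem_closedBall_zero_iff, pi_norm_le_iff_of_nonneg (by norm_num)]
  intro k
  have h1 : ‖Z k‖ ^ 2 ≤ nsq Z :=
    Finset.single_le_sum (f := fun k => ‖Z k‖ ^ 2) (fun _ _ => by positivity) (Finset.mem_univ k)
  nlinarith [hZ.2, norm_nonneg (Z k)]

theorem eta_nonneg (x : ℝ) : 0 ≤ eta x :=
  mul_nonneg (expNegInvGlue.nonneg _) (expNegInvGlue.nonneg _)

theorem eta_pos {x : ℝ} (h1 : 1 < x) (h2 : x < 4) : 0 < eta x :=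
  mul_pos (expNegInvGlue.pos_of_pos (by linarith)) (expNegInvGlue.pos_of_pos (by linarith))

theorem eta_zero {x : ℝ} (h : x ≤ 1 ∨ 4 ≤ x) : eta x = 0 := by
  rcases h with h | h
  · rw [eta, expNegInvGlue.zero_of_nonpos (by linarith), zero_mul]
  · rw [eta, expNegInvGlue.zero_of_nonpos (x := 4 - x) (by linarith), mul_zero]

theorem contDiff_eta : ContDiff ℝ ∞ eta :=
  (expNegInvGlue.contDiff.comp (contDiff_id.sub contDiff_const)).mul
    (expNegInvGlue.contDiff.comp (contDiff_const.sub contDiff_id))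

theorem re_pos_of_pos {z : ℂ} (h : 0 < z) : 0 < z.re := (Complex.lt_def.1 h).1

theorem eq_re_of_pos {z : ℂ} (h : 0 < z) : z = (z.re : ℂ) :=
  Complex.ext rfl (by simpa using (Complex.lt_def.1 h).2.symm)

theorem Pot.vol_pos {Φ : V → ℝ} (h : Pot Φ) {Z : V} (hZ : Z ≠ 0) : 0 < Vol Φ Z := by
  unfold Vol
  exact re_pos_of_pos (h.pos Z hZ).det_pos

theorem Pot.det_eq {Φ : V → ℝ} (h : Pot Φ) {Z : V} (hZ : Z ≠ 0) :
    (Gh Φ Z).det = (Vol Φ Z : ℂ) := by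
  unfold Vol
  exact eq_re_of_pos (h.pos Z hZ).det_pos

theorem Pot.det_ne {Φ : V → ℝ} (h : Pot Φ) {Z : V} (hZ : Z ≠ 0) : (Gh Φ Z).det ≠ 0 :=
  (h.pos Z hZ).det_pos.ne'

theorem Sm.slice {f : ℝ → V → ℝ} (hf : Sm f) {t : ℝ} (ht : 0 ≤ t) :
    ContDiffOn ℝ ∞ (f t) Om := fun _ hZ =>
  (par_slice isOpen_Om hf ht hZ).contDiffWithinAt

end Vale.Agent.P264.U
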