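import Vale.Agent.P264.U.Int

/-! P264 U/Div (TASK): derivatives of functions homogeneous of degree `-15` have integral zero.
Write `N = nsq`. The set integral over `Kc` is the integral over `V`
(`setIntegral_eq_integral_of_forall_compl_eq_zero`, `eta_zero`). The function `Z ↦ eta (N Z) * f Z` is smooth on `V`
(near `0` it vanishes since `N < 1`) with compact support, so the integral of its derivative in the direction `v` is `0`
(`integral_fderiv_eq_zero`-type lemma, or `integral_mul_fderiv_eq_neg_fderiv_mul_of_integrable` with the constant `1`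
replaced by a bump, or `integral_bilinear_hasLineDerivAt_right_eq_neg_left_of_integrable`).
Hence `II (D_v f) = - ∫ eta' (N) * N * k`, `k = D_v N * f / N` homogeneous of degree `-16`, continuous on `Om`.
`div_scale`: `A r = ∫ eta (r² N Z) * k Z` is constant in `r > 0` (`MeasureTheory.Measure.integral_comp_smul`,
`Module.finrank ℝ V = 16`), and `A' 1 = ∫ 2 N eta' (N) k` (`hasDerivAt_integral_of_dominated_loc_of_deriv_le` on the shell
`1/4 ≤ N ≤ 16`, `r ∈ (1/2, 2)`; or integrate by parts once more with the Euler field). -/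

noncomputable section

open Set Filter Topology MeasureTheory Matrix
open scoped ContDiff ComplexConjugate ComplexOrder

namespace Vale.Agent.P264.U

theorem nsq_zero_Div : nsq (0 : V) = 0 := by simp [nsq]

theorem nsq_real_Div (r : ℝ) (Z : V) : nsq (r • Z) = r ^ 2 * nsq Z := by
  rw [← Complex.coe_smul, nsq_smul_U, Complex.norm_real, Real.norm_eq_abs, sq_abs]

theorem out_Div {Z : V} (h : Z ∉ Kc) : nsq Z < 1 ∨ 4 < nsq Z := by
  by_contra! H
  exact h H

theorem deriv_eta_Div {x : ℝ} (h : x < 1 ∨ 4 < x) : deriv eta x = 0 := by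
  have e : eta =ᶠ[𝓝 x] fun _ => 0 := by
    rcases h with h | h
    · exact mem_of_superset (Iio_mem_nhds h) fun y hy => eta_zero (Or.inl (le_of_lt hy))
    · exact mem_of_superset (Ioi_mem_nhds h) fun y hy => eta_zero (Or.inr (le_of_lt hy))
  rw [e.deriv_eq, deriv_const]

theorem int_Div {a b : V → ℝ} (ha : Continuous a) (h0 : ∀ Z, Z ∉ Kc → a Z = 0)
    (hb : ContinuousOn b Om) : Integrable fun Z => a Z * b Z :=
  (integrableOn_iff_integrable_of_support_subset fun Z hZ => by
    by_contra h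
    exact hZ (by simp only [h0 Z h, zero_mul])).1
    ((ha.continuousOn.mul (hb.mono Kc_sub)).integrableOn_compact isCompact_Kc)

theorem div_scale {k : V → ℝ} (hk : ContinuousOn k Om)
    (hh : ∀ (r : ℝ) (Z : V), 0 < r → Z ≠ 0 → k ((r : ℂ) • Z) = (r ^ 16)⁻¹ * k Z) :
    ∫ Z in Kc, deriv eta (nsq Z) * nsq Z * k Z = 0 := by
  have cN := (contDiff_nsq_U (n := 8)).continuous
  have cE := contDiff_eta.continuous
  have cD : Continuous (deriv eta) := contDiff_eta.continuous_deriv (nat_le_inf 1)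
  obtain ⟨K, hK, hKO, hK1⟩ : ∃ K : Set V, IsCompact K ∧ K ⊆ Om ∧
      ∀ Z, Z ∉ K → nsq Z < 1 / 2 ∨ 8 < nsq Z := by
    refine ⟨{Z | 1 / 2 ≤ nsq Z} ∩ Metric.closedBall 0 3, (isCompact_closedBall _ _).inter_left
      (isClosed_le continuous_const cN), fun Z hZ h0 => ?_, fun Z hZ => ?_⟩
    · have h1 : 1 / 2 ≤ nsq Z := hZ.1
      rw [h0, nsq_zero_Div] at h1
      linarith
    · by_contra! H
      refine hZ ⟨H.1, ?_⟩
      rw [mem_closedBall_zero_iff, pi_norm_le_iff_of_nonneg (by norm_num)]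
      intro j
      have h1 : ‖Z j‖ ^ 2 ≤ nsq Z := Finset.single_le_sum (f := fun j => ‖Z j‖ ^ 2)
        (fun _ _ => by positivity) (Finset.mem_univ j)
      nlinarith [H.2, norm_nonneg (Z j)]
  have hk' := hk.mono hKO
  have c1 : ∀ s : ℝ, ContinuousOn (fun Z => eta (s * nsq Z) * k Z) K := fun s =>
    (cE.comp (cN.const_mul s)).continuousOn.mul hk'
  have c2 : ContinuousOn (fun p : ℝ × V => deriv eta (p.1 * nsq p.2) * nsq p.2 * k p.2)
      (Icc (1 / 2) 2 ×ˢ K) :=
    ((cD.comp (continuous_fst.mul (cN.comp continuous_snd))).mul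
      (cN.comp continuous_snd)).continuousOn.mul (hk'.comp continuousOn_snd fun p hp => hp.2)
  obtain ⟨C, hC⟩ := (isCompact_Icc.prod hK).exists_bound_of_continuousOn c2
  have hI : Icc (1 / 2 : ℝ) 2 ∈ 𝓝 1 := Icc_mem_nhds (by norm_num) (by norm_num)
  have hd := (hasDerivAt_integral_of_dominated_loc_of_deriv_le (μ := volume.restrict K)
    (F := fun s Z => eta (s * nsq Z) * k Z) (F' := fun s Z => deriv eta (s * nsq Z) * nsq Z * k Z)
    (bound := fun _ => C) hI (Eventually.of_forall fun s =>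
      (c1 s).aestronglyMeasurable hK.measurableSet) ((c1 1).integrableOn_compact hK)
    ((((cD.comp (cN.const_mul 1)).mul cN).continuousOn.mul hk').aestronglyMeasurable
      hK.measurableSet)
    (ae_restrict_of_forall_mem hK.measurableSet fun Z hZ s hs => hC (s, Z) ⟨hs, hZ⟩)
    (integrableOn_const hK.measure_lt_top.ne)
    (ae_of_all _ fun Z s _ => (((contDiff_eta.differentiable (by simp) _).hasDerivAt).comp s
      (hasDerivAt_mul_const (nsq Z))).mul_const (k Z))).2
  have he : (fun s => ∫ Z in K, eta (s * nsq Z) * k Z) =ᶠ[𝓝 1]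
      fun _ => ∫ Z, eta (nsq Z) * k Z := by
    filter_upwards [hI] with s hs
    have s0 : 0 < s := by linarith [hs.1]
    have r0 := Real.sqrt_pos.2 s0
    rw [setIntegral_eq_integral_of_forall_compl_eq_zero fun Z hZ => by
      rw [eta_zero, zero_mul]
      exact (hK1 Z hZ).imp (fun h => by nlinarith [hs.2]) fun h => by nlinarith [hs.1]]
    have h1 := Measure.integral_comp_smul volume (fun Z : V => eta (nsq Z) * k Z) √s
    rw [show Module.finrank ℝ V = 16 by simp [Module.finrank_pi_fintype],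
      abs_of_pos (by positivity), smul_eq_mul] at h1
    refine mul_left_cancel₀ (a := (√s ^ 16)⁻¹) (by positivity) ?_
    rw [← h1, ← integral_const_mul]
    refine integral_congr_ae (ae_of_all _ fun Z => ?_)
    rcases eq_or_ne Z 0 with rfl | hZ
    · simp only [smul_zero, nsq_zero_Div, mul_zero, eta_zero (Or.inl zero_le_one), zero_mul]
    · simp only [nsq_real_Div, Real.sq_sqrt s0.le]
      rw [← Complex.coe_smul, hh _ Z r0 hZ, mul_left_comm]
  have h0 := hd.unique ((hasDerivAt_const _ _).congr_of_eventuallyEq he)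
  simp only [one_mul] at h0
  rw [setIntegral_eq_integral_of_forall_compl_eq_zero fun Z hZ => by
    rw [deriv_eta_Div ((hK1 Z hZ).imp (fun h => by linarith) fun h => by linarith), zero_mul,
      zero_mul]] at h0
  rwa [setIntegral_eq_integral_of_forall_compl_eq_zero fun Z hZ => by
    rw [deriv_eta_Div (out_Div hZ), zero_mul, zero_mul]]

theorem II_fderiv {f : V → ℝ} (hf : ContDiffOn ℝ ∞ f Om)
    (hh : ∀ (r : ℝ) (Z : V), 0 < r → Z ≠ 0 → f ((r : ℂ) • Z) = (r ^ 15)⁻¹ * f Z) (v : V) :
    II (fun Z => fderiv ℝ f Z v) = 0 := by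
  have dN := (contDiff_nsq_U (n := 8)).differentiable (by simp)
  have cN := dN.continuous
  have cN' : Continuous fun Z : V => fderiv ℝ nsq Z v :=
    (contDiff_nsq_U.continuous_fderiv (by simp)).clm_apply continuous_const
  have cD : Continuous (deriv eta) := contDiff_eta.continuous_deriv (nat_le_inf 1)
  have d1 : ∀ Z : V, HasFDerivAt (fun Z => eta (nsq Z)) (deriv eta (nsq Z) • fderiv ℝ nsq Z) Z :=
    fun Z => (contDiff_eta.differentiable (by simp) _).hasDerivAt.comp_hasFDerivAt Z
      (dN Z).hasFDerivAt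
  have d2 : ∀ Z : V, fderiv ℝ (fun Z => eta (nsq Z)) Z v = deriv eta (nsq Z) * fderiv ℝ nsq Z v :=
    fun Z => by rw [(d1 Z).fderiv]; rfl
  have z1 : ∀ Z, Z ∉ Kc → eta (nsq Z) = 0 := fun Z hZ =>
    eta_zero ((out_Div hZ).imp le_of_lt le_of_lt)
  have z2 : ∀ Z, Z ∉ Kc → deriv eta (nsq Z) * fderiv ℝ nsq Z v = 0 := fun Z hZ => by
    rw [deriv_eta_Div (out_Div hZ), zero_mul]
  have cE := contDiff_eta.continuous.comp cN
  have h1 := integral_mul_fderiv_eq_neg_fderiv_mul_of_integrable (μ := volume) (v := v)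
    (f := fun Z => eta (nsq Z)) (g := f)
    (by simp only [d2]; exact int_Div ((cD.comp cN).mul cN') z2 hf.continuousOn)
    (int_Div cE z1 ((hf.continuousOn_fderiv_of_isOpen isOpen_Om (nat_le_inf 1)).clm_apply
      continuousOn_const)) (int_Div cE z1 hf.continuousOn) (fun Z _ => (d1 Z).differentiableAt)
    fun Z hZ => (hf.contDiffAt (Om_nhds (Kc_sub (closure_minimal (fun Y hY => by
      by_contra h
      exact hY (z1 Y h)) isCompact_Kc.isClosed hZ)))).differentiableAt (by simp)
  have h2 := div_scale (k := fun Z => fderiv ℝ nsq Z v * f Z / nsq Z)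
    ((cN'.continuousOn.mul hf.continuousOn).div cN.continuousOn fun Z hZ => (nsq_pos_U hZ).ne')
    fun r Z hr hZ => by
      have e1 := fderiv_comp_smul (𝕜 := ℝ) (f := nsq) (x := Z) r
      simp only [nsq_real_Div] at e1
      rw [fderiv_const_mul (dN Z)] at e1
      have e2 : r ^ 2 * fderiv ℝ nsq Z v = r * fderiv ℝ nsq (r • Z) v := DFunLike.congr_fun e1 v
      have e3 := (nsq_pos_U hZ).ne'
      rw [hh r Z hr hZ, Complex.coe_smul, nsq_real_Div, mul_left_cancel₀ hr.ne'
        (e2.symm.trans (by ring : _ = r * (r * fderiv ℝ nsq Z v)))]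
      field_simp
  rw [II, setIntegral_eq_integral_of_forall_compl_eq_zero fun Z hZ => by rw [z1 Z hZ, zero_mul], h1,
    neg_eq_zero, ← h2]
  simp only [d2]
  rw [← setIntegral_eq_integral_of_forall_compl_eq_zero (s := Kc) fun Z hZ => by
    rw [z2 Z hZ, zero_mul]]
  refine setIntegral_congr_fun isCompact_Kc.measurableSet fun Z hZ => ?_
  have e3 := (nsq_pos_U (Kc_sub hZ)).ne'
  field_simp

/-- The real part of `dz X a` is `(D (re X) e_a + D (im X) (I e_a)) / 2`. -/
theorem II_dz {X : V → ℂ} (hX : ContDiffOn ℝ ∞ X Om)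
    (hh : ∀ (r : ℝ) (Z : V), 0 < r → Z ≠ 0 → X ((r : ℂ) • Z) = ((r : ℂ) ^ 15)⁻¹ * X Z) (a : Fin 8) :
    II (fun Z => (dz X a Z).re) = 0 := by
  have key : ∀ L : ℂ →L[ℝ] ℝ, ∀ v : V, ContinuousOn (fun Z => L (fderiv ℝ X Z v)) Om ∧
      II (fun Z => L (fderiv ℝ X Z v)) = 0 := fun L v => by
    refine ⟨L.continuous.comp_continuousOn ((hX.continuousOn_fderiv_of_isOpen isOpen_Om
      (nat_le_inf 1)).clm_apply continuousOn_const), ?_⟩
    rw [← II_fderiv (f := fun Z => L (X Z)) (L.contDiff.comp_contDiffOn hX) (fun r Z hr hZ => by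
      rw [hh r Z hr hZ, ← Complex.ofReal_pow, ← Complex.ofReal_inv, ← Complex.real_smul, map_smul,
        smul_eq_mul]) v]
    refine II_congr fun Z hZ => ?_
    exact (DFunLike.congr_fun (L.hasFDerivAt.comp Z ((hX.contDiffAt (Om_nhds
      (Kc_sub hZ))).differentiableAt (by simp)).hasFDerivAt).fderiv v).symm
  obtain ⟨a1, a2⟩ := key Complex.reCLM (Pi.single a 1)
  obtain ⟨b1, b2⟩ := key Complex.imCLM (Pi.single a Complex.I)
  rw [II_congr (g := fun Z => 1 / 2 * (Complex.reCLM (fderiv ℝ X Z (Pi.single a 1)) +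
    Complex.imCLM (fderiv ℝ X Z (Pi.single a Complex.I)))) fun Z _ => by simp [dz],
    II_mul, II_add a1 b1, a2, b2, add_zero, mul_zero]

end Vale.Agent.P264.U
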