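import Vale.Agent.P264.U.Defs

/-! P264 U/Ineq (helper2): the pointwise inequality, by simultaneous diagonalisation. -/

noncomputable section

open Set Filter Topology MeasureTheory Matrix
open scoped ContDiff ComplexConjugate ComplexOrder

namespace Vale.Agent.P264.U

private theorem ineq_simul {A H : Mat} (hA : A.PosDef) (hH : H.IsHermitian) :
    ∃ (C P : Mat) (l : Fin 8 → ℝ), C * P = 1 ∧ P * C = 1 ∧ A = Cᴴ * C ∧
      H = Cᴴ * Matrix.diagonal (fun i => (l i : ℂ)) * C := by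
  open scoped MatrixOrder in
  obtain ⟨y, hy, rfl⟩ := CStarAlgebra.isStrictlyPositive_iff_eq_star_mul_self.mp
    hA.isStrictlyPositive
  obtain ⟨u, rfl⟩ := hy
  set y : Mat := (u : Mat) with hy
  set z : Mat := ((u⁻¹ : Matˣ) : Mat) with hz
  have hyz : y * z = 1 := u.mul_inv
  have hzy : z * y = 1 := u.inv_mul
  have hH' : (zᴴ * H * z).IsHermitian := isHermitian_conjTranspose_mul_mul z hH
  have hs := hH'.spectral_theorem
  rw [Unitary.conjStarAlgAut_apply] at hs
  set U : Mat := (hH'.eigenvectorUnitary : Mat) with hU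
  have h1 : U * star U = 1 := Unitary.coe_mul_star_self _
  have h2 : star U * U = 1 := Unitary.coe_star_mul_self _
  refine ⟨star U * y, z * U, hH'.eigenvalues, ?_, ?_, ?_, ?_⟩
  · calc star U * y * (z * U) = star U * (y * z) * U := by simp only [mul_assoc]
      _ = 1 := by rw [hyz, mul_one, h2]
  · calc z * U * (star U * y) = z * (U * star U) * y := by simp only [mul_assoc]
      _ = 1 := by rw [h1, mul_one, hzy]
  · rw [← star_eq_conjTranspose, star_mul, star_star]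
    calc star y * y = star y * (U * star U) * y := by rw [h1, mul_one]
      _ = _ := by simp only [mul_assoc]
  · rw [← star_eq_conjTranspose, star_mul, star_star]
    have h3 : star y * (zᴴ * H * z) * y = H := by
      rw [← star_eq_conjTranspose]
      calc star y * (star z * H * z) * y = star (z * y) * H * (z * y) := by
            rw [star_mul]; simp only [mul_assoc]
        _ = H := by rw [hzy, star_one, one_mul, mul_one]
    have h4 : (fun i => ((hH'.eigenvalues i : ℝ) : ℂ)) = RCLike.ofReal ∘ hH'.eigenvalues := rfl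
    rw [h4]
    generalize Matrix.diagonal (RCLike.ofReal ∘ hH'.eigenvalues : Fin 8 → ℂ) = D at hs
    rw [← h3, hs]
    simp only [mul_assoc]

private theorem ineq_scalar (l n : Fin 8 → ℝ) (W p : ℝ) (hQ : ∑ i, l i ^ 2 ≤ 1 / 10 ^ 4)
    (hW : ∑ i, n i ^ 2 ≤ W) :
    -2 * (-Real.log (∏ i, (1 - l i)) * (∑ i, l i)
        + (∑ i, (1 - l i)⁻¹ * l i) * (∏ i, (1 - l i)) - ∑ i, l i)
      + 2 * p * ((∑ i, (1 - l i)⁻¹ * n i) - ∑ i, n i) ≤ 4 * W * p ^ 2 := by
  have hl : ∀ i, |l i| ≤ 1 / 100 := fun i => by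
    have h1 : l i ^ 2 ≤ ∑ i, l i ^ 2 :=
      Finset.single_le_sum (f := fun i => l i ^ 2) (fun i _ => sq_nonneg _) (Finset.mem_univ i)
    exact abs_le_of_sq_le_sq' (by linarith) (by norm_num) |> abs_le.2
  have hl1 : ∀ i, l i ≤ 1 / 100 := fun i => (abs_le.1 (hl i)).2
  have hl2 : ∀ i, -(1 / 100) ≤ l i := fun i => (abs_le.1 (hl i)).1
  have hp : ∀ i, 0 < 1 - l i := fun i => by linarith [hl1 i]
  set Q := ∑ i, l i ^ 2 with hQd
  set s := ∑ i, l i with hs
  have hQ0 : 0 ≤ Q := Finset.sum_nonneg fun i _ => sq_nonneg _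
  have hs2 : s ^ 2 ≤ 8 * Q := by
    have := sq_sum_le_card_mul_sum_sq (s := Finset.univ) (f := l)
    simpa using this
  set F := -Real.log (∏ i, (1 - l i)) with hF
  have hPi : 0 < ∏ i, (1 - l i) := Finset.prod_pos fun i _ => hp i
  have hexp : ∏ i, (1 - l i) = Real.exp (-F) := by
    rw [hF, neg_neg, Real.exp_log hPi]
  have hFs : F = ∑ i, -Real.log (1 - l i) := by
    rw [hF, Real.log_prod (fun i _ => (hp i).ne'), Finset.sum_neg_distrib]
  have hinv : ∀ i, (1 - l i)⁻¹ = 1 + (1 - l i)⁻¹ * l i := fun i => by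
    field_simp [(hp i).ne']; ring
  have hi1 : ∀ i, (1 - l i)⁻¹ ≤ 2 := fun i =>
    (inv_le_comm₀ (hp i) (by norm_num)).2 (by linarith [hl1 i])
  have hi2 : ∀ i, 99 / 100 ≤ (1 - l i)⁻¹ := fun i =>
    (le_inv_comm₀ (by norm_num) (hp i)).2 (by norm_num; linarith [hl2 i])
  have hF1 : s ≤ F := by
    rw [hFs]
    refine Finset.sum_le_sum fun i _ => ?_
    have := Real.log_le_sub_one_of_pos (hp i)
    linarith
  have hF2 : F ≤ s + 2 * Q := by
    rw [hFs, hs, hQd, Finset.mul_sum, ← Finset.sum_add_distrib]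
    refine Finset.sum_le_sum fun i _ => ?_
    have h1 := Real.log_le_sub_one_of_pos (inv_pos.2 (hp i))
    rw [Real.log_inv] at h1
    have h2 := hinv i
    have h3 : (1 - l i)⁻¹ * l i = l i + (1 - l i)⁻¹ * l i ^ 2 := by
      field_simp [(hp i).ne']; ring
    have h4 : (1 - l i)⁻¹ * l i ^ 2 ≤ 2 * l i ^ 2 :=
      mul_le_mul_of_nonneg_right (hi1 i) (sq_nonneg _)
    linarith
  have hT : s + 99 / 100 * Q ≤ ∑ i, (1 - l i)⁻¹ * l i ∧ ∑ i, (1 - l i)⁻¹ * l i ≤ s + 2 * Q := by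
    rw [hs, hQd, Finset.mul_sum, Finset.mul_sum, ← Finset.sum_add_distrib,
      ← Finset.sum_add_distrib]
    constructor <;> refine Finset.sum_le_sum fun i _ => ?_
    · have h3 : (1 - l i)⁻¹ * l i = l i + (1 - l i)⁻¹ * l i ^ 2 := by
        field_simp [(hp i).ne']; ring
      have h4 := mul_le_mul_of_nonneg_right (hi2 i) (sq_nonneg (l i))
      linarith
    · have h3 : (1 - l i)⁻¹ * l i = l i + (1 - l i)⁻¹ * l i ^ 2 := by
        field_simp [(hp i).ne']; ring
      have h4 := mul_le_mul_of_nonneg_right (hi1 i) (sq_nonneg (l i))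
      linarith
  have hR : 2 * p * ((∑ i, (1 - l i)⁻¹ * n i) - ∑ i, n i) ≤ 4 * W * p ^ 2 + Q := by
    have h1 : 2 * p * ((∑ i, (1 - l i)⁻¹ * n i) - ∑ i, n i)
        ≤ ∑ i, (4 * p ^ 2 * n i ^ 2 + l i ^ 2) := by
      rw [← Finset.sum_sub_distrib, Finset.mul_sum]
      refine Finset.sum_le_sum fun i _ => ?_
      have h2 : (1 - l i)⁻¹ * n i - n i = n i * ((1 - l i)⁻¹ * l i) := by
        field_simp [(hp i).ne']; ring
      have h3 : ((1 - l i)⁻¹ * l i) ^ 2 ≤ 4 * l i ^ 2 := by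
        rw [mul_pow]
        refine mul_le_mul_of_nonneg_right ?_ (sq_nonneg _)
        have := inv_pos.2 (hp i)
        nlinarith [hi1 i]
      rw [h2]
      nlinarith [sq_nonneg (2 * p * n i - (1 - l i)⁻¹ * l i / 2)]
    rw [Finset.sum_add_distrib, ← Finset.mul_sum] at h1
    nlinarith [sq_nonneg p]
  have hsb : |s| ≤ 3 / 100 := abs_le_of_sq_le_sq' (by nlinarith) (by norm_num) |> abs_le.2
  obtain ⟨hs3, hs4⟩ := abs_le.1 hsb
  have hFb : |F| ≤ 1 := abs_le.2 ⟨by linarith, by linarith⟩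
  have hE := Real.abs_exp_sub_one_sub_id_le (x := -F) (by rwa [abs_neg])
  have hE0 : 1 - F ≤ Real.exp (-F) := by linarith [Real.add_one_le_exp (-F)]
  have hE1 : Real.exp (-F) - 1 + F ≤ F ^ 2 := by
    have := (abs_le.1 hE).2
    nlinarith
  have hFQ : F ^ 2 ≤ 9 * Q := by
    obtain ⟨v, hv⟩ : ∃ v, F = s + v := ⟨F - s, by ring⟩
    have hv0 : 0 ≤ v := by linarith
    have hv1 : v ≤ 2 * Q := by linarith
    rw [hv]
    nlinarith
  rw [hexp]
  set E := Real.exp (-F) with hEd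
  set T := ∑ i, (1 - l i)⁻¹ * l i with hTd
  obtain ⟨hT1, hT2⟩ := hT
  have hE2 : 96 / 100 ≤ E := by linarith
  have k1 : -(27 / 100 * Q) ≤ s * (E - 1 + F) := by nlinarith
  have k2 : 95 / 100 * Q ≤ (T - s) * E := by nlinarith
  nlinarith

private theorem ineq_inv {C P : Mat} (h1 : C * P = 1) (h2 : P * C = 1) (d : Fin 8 → ℝ)
    (hd : ∀ i, d i ≠ 0) :
    (Cᴴ * Matrix.diagonal (fun i => (d i : ℂ)) * C)⁻¹
      = P * Matrix.diagonal (fun i => (((d i)⁻¹ : ℝ) : ℂ)) * Pᴴ := by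
  apply inv_eq_left_inv
  have h3 : Pᴴ * Cᴴ = 1 := by rw [← conjTranspose_mul, h1, conjTranspose_one]
  have h4 : Matrix.diagonal (fun i => (((d i)⁻¹ : ℝ) : ℂ)) * Matrix.diagonal (fun i => (d i : ℂ)) = (1 : Mat) := by
    rw [diagonal_mul_diagonal, ← diagonal_one]
    congr 1
    funext i
    rw [← Complex.ofReal_mul, inv_mul_cancel₀ (hd i), Complex.ofReal_one]
  calc P * Matrix.diagonal (fun i => (((d i)⁻¹ : ℝ) : ℂ)) * Pᴴ * (Cᴴ * Matrix.diagonal (fun i => (d i : ℂ)) * C)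
      = P * (Matrix.diagonal (fun i => (((d i)⁻¹ : ℝ) : ℂ)) * (Pᴴ * Cᴴ) * Matrix.diagonal (fun i => (d i : ℂ)))
        * C := by simp only [mul_assoc]
    _ = 1 := by rw [h3, mul_one, h4, mul_one, h2]

private theorem ineq_tr (P X : Mat) (d : Fin 8 → ℝ) :
    (P * Matrix.diagonal (fun i => (d i : ℂ)) * Pᴴ * X).trace.re
      = ∑ i, d i * ((Pᴴ * X * P) i i).re := by
  have : (P * Matrix.diagonal (fun i => (d i : ℂ)) * Pᴴ * X).trace
      = (Matrix.diagonal (fun i => (d i : ℂ)) * (Pᴴ * X * P)).trace := by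
    rw [mul_assoc, mul_assoc, trace_mul_comm, mul_assoc]
  rw [this, trace, Complex.re_sum]
  refine Finset.sum_congr rfl fun i _ => ?_
  simp [diagonal_mul]

theorem ineq_main {A H N : Mat} (hA : A.PosDef) (hH : H.IsHermitian) (hN : N.IsHermitian)
    (hQ : (A⁻¹ * H * A⁻¹ * H).trace.re ≤ 1 / 10 ^ 4) (p : ℝ) :
    -2 * ((Real.log A.det.re - Real.log (A - H).det.re) * (A⁻¹ * H).trace.re * A.det.re
        + ((A - H)⁻¹ * H).trace.re * (A - H).det.re - (A⁻¹ * H).trace.re * A.det.re)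
      + 2 * p * (((A - H)⁻¹ * N).trace.re - (A⁻¹ * N).trace.re) * A.det.re
      ≤ 4 * (A⁻¹ * N * A⁻¹ * N).trace.re * p ^ 2 * A.det.re := by
  obtain ⟨C, P, l, h1, h2, hAC, hHC⟩ := ineq_simul hA hH
  have h3 : Pᴴ * Cᴴ = 1 := by rw [← conjTranspose_mul, h1, conjTranspose_one]
  have hA1 : A = Cᴴ * Matrix.diagonal (fun _ => ((1 : ℝ) : ℂ)) * C := by
    rw [hAC, Complex.ofReal_one, diagonal_one, mul_one]
  have hAi : A⁻¹ = P * Matrix.diagonal (fun _ => ((1 : ℝ) : ℂ)) * Pᴴ := by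
    rw [hA1, ineq_inv h1 h2 (fun _ => 1) fun _ => one_ne_zero]
    simp
  have hAi' : A⁻¹ = P * Pᴴ := by rw [hAi, Complex.ofReal_one, diagonal_one, mul_one]
  have hPH : Pᴴ * H * P = Matrix.diagonal (fun i => (l i : ℂ)) := by
    calc Pᴴ * H * P = (Pᴴ * Cᴴ) * Matrix.diagonal (fun i => (l i : ℂ)) * (C * P) := by
          rw [hHC]; simp only [mul_assoc]
      _ = _ := by rw [h3, h1, one_mul, mul_one]
  have htr2 : ∀ X : Mat, (A⁻¹ * X * A⁻¹ * X).trace = ((Pᴴ * X * P) * (Pᴴ * X * P)).trace := by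
    intro X
    rw [hAi']
    calc (P * Pᴴ * X * (P * Pᴴ) * X).trace = (P * (Pᴴ * X * P * (Pᴴ * X))).trace := by
          simp only [mul_assoc]
      _ = _ := by rw [trace_mul_comm]; simp only [mul_assoc]
  have hQ' : ∑ i, l i ^ 2 ≤ 1 / 10 ^ 4 := by
    rw [htr2, hPH, diagonal_mul_diagonal, trace_diagonal, Complex.re_sum] at hQ
    refine le_trans (le_of_eq (Finset.sum_congr rfl fun i _ => ?_)) hQ
    rw [← Complex.ofReal_mul, Complex.ofReal_re, sq]
  have hp : ∀ i, 0 < 1 - l i := fun i => by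
    have h : l i ^ 2 ≤ ∑ i, l i ^ 2 :=
      Finset.single_le_sum (f := fun i => l i ^ 2) (fun i _ => sq_nonneg _) (Finset.mem_univ i)
    nlinarith
  have hB : A - H = Cᴴ * Matrix.diagonal (fun i => ((1 - l i : ℝ) : ℂ)) * C := by
    rw [hA1, hHC, ← sub_mul, ← mul_sub, diagonal_sub]
    simp only [Complex.ofReal_sub]
  have hBi := ineq_inv h1 h2 (fun i => 1 - l i) fun i => (hp i).ne'
  rw [← hB] at hBi
  have hD0 : 0 < A.det.re := (Complex.pos_iff.1 hA.det_pos).1
  have hdet : (A - H).det.re = (∏ i, (1 - l i)) * A.det.re := by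
    have : (A - H).det = ((∏ i, (1 - l i) : ℝ) : ℂ) * A.det := by
      rw [hB, hAC, det_mul, det_mul, det_mul, det_diagonal, Complex.ofReal_prod]
      ring
    rw [this, Complex.re_ofReal_mul]
  have hPi : 0 < ∏ i, (1 - l i) := Finset.prod_pos fun i _ => hp i
  set M : Mat := Pᴴ * N * P with hM
  have hMh : M.IsHermitian := isHermitian_conjTranspose_mul_mul P hN
  have hW : ∑ i, (M i i).re ^ 2 ≤ (A⁻¹ * N * A⁻¹ * N).trace.re := by
    rw [htr2, ← hM, trace, Complex.re_sum]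
    refine Finset.sum_le_sum fun i _ => ?_
    rw [diag_apply, mul_apply, Complex.re_sum]
    have hj : ∀ j, (M i j * M j i).re = Complex.normSq (M i j) := fun j => by
      rw [← hMh.apply j i, Complex.star_def, Complex.mul_conj, Complex.ofReal_re]
    simp only [hj]
    refine le_trans ?_ (Finset.single_le_sum (f := fun j => Complex.normSq (M i j))
      (fun j _ => Complex.normSq_nonneg _) (Finset.mem_univ i))
    rw [Complex.normSq_apply]
    nlinarith [mul_self_nonneg (M i i).im]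
  have e1 : (A⁻¹ * H).trace.re = ∑ i, l i := by
    rw [hAi, ineq_tr, hPH]; simp
  have e2 : ((A - H)⁻¹ * H).trace.re = ∑ i, (1 - l i)⁻¹ * l i := by
    rw [hBi, ineq_tr, hPH]; simp
  have e3 : (A⁻¹ * N).trace.re = ∑ i, (M i i).re := by
    rw [hAi, ineq_tr]; simp [hM]
  have e4 : ((A - H)⁻¹ * N).trace.re = ∑ i, (1 - l i)⁻¹ * (M i i).re := by
    rw [hBi, ineq_tr]
  have key := ineq_scalar l (fun i => (M i i).re) _ p hQ' hW
  rw [e1, e2, e3, e4, hdet, Real.log_mul hPi.ne' hD0.ne']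
  have := mul_le_mul_of_nonneg_right key hD0.le
  nlinarith

end Vale.Agent.P264.U
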