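import Vale.Agent.P264.U.IBP
import Vale.Agent.P264.U.Alg
import Vale.Agent.P264.U.Ineq

/-! P264 U/Energy (helper76): the energy inequality at a fixed time. -/

noncomputable section

open Set Filter Topology MeasureTheory Matrix
open scoped ContDiff ComplexConjugate ComplexOrder

namespace Vale.Agent.P264.U

theorem lap_sub_Energy (Φ : V → ℝ) {f g : V → ℝ} {Z : V} (hf : ContDiffAt ℝ 2 f Z)
    (hg : ContDiffAt ℝ 2 g Z) : lap Φ (fun y => f y - g y) Z = lap Φ f Z - lap Φ g Z := by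
  unfold lap
  rw [cHess_sub hf hg, Matrix.mul_sub, Matrix.trace_sub, Complex.sub_re]

theorem point_Energy {Φ Ψ : V → ℝ} (h1 : Pot Φ) (h2 : Pot Ψ) {Z : V} (hZ : Z ≠ 0)
    (hQ : tr2 Φ (fun y => Φ y - Ψ y) Z ≤ 1 / 10 ^ 4) :
    -2 * ((Lam Φ Z - Lam Ψ Z) * lap Φ (fun y => Φ y - Ψ y) Z * Vol Φ Z
        + lap Ψ (fun y => Φ y - Ψ y) Z * Vol Ψ Z - lap Φ (fun y => Φ y - Ψ y) Z * Vol Φ Z)
      + 2 * (Φ Z - Ψ Z) * (lap Ψ (Lam Ψ) Z - lap Φ (Lam Ψ) Z) * Vol Φ Z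
      ≤ 4 * tr2 Φ (Lam Ψ) Z * (Φ Z - Ψ Z) ^ 2 * Vol Φ Z := by
  have hψ := h1.hom.sub0 h2.hom
  have hv : gr Φ Z ⬝ᵥ Z = 1 := by simpa using hom_euler h1.hom hZ
  have hw : gr Ψ Z ⬝ᵥ Z = 1 := by simpa using hom_euler h2.hom hZ
  have hB : Gh Φ Z - cHess (fun y => Φ y - Ψ y) Z = cHess Ψ Z + vv (gr Φ Z) := by
    rw [cHess_sub (h1.hom.at2 hZ) (h2.hom.at2 hZ), Gh]
    abel
  have hK := hom_kills h2.hom hZ
  have key := ineq_main (h1.pos Z hZ) (cHess_herm (hψ.at2 hZ)) (cHess_herm (h2.lam.at2 hZ))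
    (by unfold tr2 at hQ; exact hQ) (Φ Z - Ψ Z)
  rw [hB, alg_det hv hw hK, alg_tr hv hw hK (hom_kills hψ hZ),
    alg_tr hv hw hK (hom_kills h2.lam hZ)] at key
  unfold Lam lap tr2 Vol
  rw [show Gh Ψ Z = cHess Ψ Z + vv (gr Ψ Z) from rfl]
  unfold Lam Vol at key
  exact key

theorem comb_Energy {E a b c d L : V → ℝ} (hE : ContinuousOn E Om) (ha : ContinuousOn a Om)
    (hb : ContinuousOn b Om) (hc : ContinuousOn c Om) (hd : ContinuousOn d Om)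
    (hL : ContinuousOn L Om) (C : ℝ) (e1 : II a = II b) (e2 : II c = 0) (e3 : II d = 0)
    (h : ∀ Z ∈ Kc, L Z ≤ C * E Z + (2 * (b Z - a Z) + 2 * (c Z - d Z))) : II L ≤ C * II E := by
  have c0 : ContinuousOn (fun Z => C * E Z) Om := continuousOn_const.mul hE
  have c1 : ContinuousOn (fun Z => 2 * (b Z - a Z)) Om := continuousOn_const.mul (hb.sub ha)
  have c2 : ContinuousOn (fun Z => 2 * (c Z - d Z)) Om := continuousOn_const.mul (hc.sub hd)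
  have c3 : ContinuousOn (fun Z => 2 * (b Z - a Z) + 2 * (c Z - d Z)) Om := c1.add c2
  have c4 : ContinuousOn (fun Z => C * E Z + (2 * (b Z - a Z) + 2 * (c Z - d Z))) Om := c0.add c3
  refine (II_mono hL c4 h).trans (le_of_eq ?_)
  rw [II_add c0 c3, II_add c1 c2, II_mul, II_mul, II_mul, II_sub hb ha, II_sub hc hd, e1, e2, e3]
  ring

theorem Pot.vol_cont {Φ : V → ℝ} (h : Pot Φ) : ContinuousOn (Vol Φ) Om := fun _ hZ =>
  (h.vol_at hZ).continuousAt.continuousWithinAt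

theorem Pot.sc_cont {Φ : V → ℝ} (h : Pot Φ) : ContinuousOn (Sc Φ) Om := fun _ hZ =>
  ((h.lap_at hZ (h.lam.at hZ)).continuousAt.neg).continuousWithinAt

theorem energy {Φ Ψ : V → ℝ} (h1 : Pot Φ) (h2 : Pot Ψ) {C : ℝ}
    (hQ : ∀ Z ∈ Kc, tr2 Φ (fun y => Φ y - Ψ y) Z ≤ 1 / 10 ^ 4)
    (hW : ∀ Z ∈ Kc, tr2 Φ (Lam Ψ) Z ≤ C) :
    II (fun Z => 2 * (Φ Z - Ψ Z) * (Sc Φ Z - Sc Ψ Z) * Vol Φ Z) ≤
      4 * C * II (fun Z => (Φ Z - Ψ Z) ^ 2 * Vol Φ Z) := by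
  have hψ := h1.hom.sub0 h2.hom
  have hF := h1.lam.sub0 h2.lam
  have cψ := hψ.smooth.continuousOn
  have cE : ContinuousOn (fun Z => (Φ Z - Ψ Z) ^ 2 * Vol Φ Z) Om := (cψ.pow 2).mul h1.vol_cont
  have cL : ContinuousOn (fun Z => 2 * (Φ Z - Ψ Z) * (Sc Φ Z - Sc Ψ Z) * Vol Φ Z) Om :=
    ((continuousOn_const.mul cψ).mul (h1.sc_cont.sub h2.sc_cont)).mul h1.vol_cont
  refine comb_Energy cE (ibp_cont h1 hψ hF.smooth)
    (ibp_cont h1 hF hψ.smooth) (ibp_cont h2 logHom_one hψ.smooth)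
    (ibp_cont h1 logHom_one hψ.smooth) cL (4 * C)
    (ibp h1 hψ hF) (ibp_one h2 hψ) (ibp_one h1 hψ) fun Z hZ => ?_
  have hZ0 : Z ≠ 0 := Kc_sub hZ
  have p1 := point_Energy h1 h2 hZ0 (hQ Z hZ)
  have p2 := lap_sub_Energy Φ (h1.lam.at2 hZ0) (h2.lam.at2 hZ0)
  have p3 : tr2 Φ (Lam Ψ) Z * ((Φ Z - Ψ Z) ^ 2 * Vol Φ Z) ≤ C * ((Φ Z - Ψ Z) ^ 2 * Vol Φ Z) :=
    mul_le_mul_of_nonneg_right (hW Z hZ) (mul_nonneg (sq_nonneg _) (h1.vol_pos hZ0).le)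
  rw [p2]
  unfold Sc
  linarith [p1, p3]

end Vale.Agent.P264.U
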