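import Vale.Agent.P264.U.Adj
import Vale.Agent.P264.U.Div

/-! P264 U/IBP (TASK): the Laplacian is symmetric.
Take real parts in `flux_div`: `∑ a, (dz (flux Φ α β a) a Z).re = α * lap Φ β * Vol Φ + B α β`
(`Pot.det_eq`, `Matrix.smul_mul`, `trace_smul`), where `B α β = B β α` since `cof` is Hermitian (conjugate and swap the sums).
So `α lap β Vol - β lap α Vol = ∑ a, re dz (flux α β a) a - ∑ a, re dz (flux β α a) a` on `Om`; `II_congr`, `II_sub`, `II_sum`,
`II_dz` (continuity of `dz X a` on `Om`: `ContDiffOn.continuousOn_fderiv_of_isOpen`). -/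

noncomputable section

open Set Filter Topology MeasureTheory Matrix
open scoped ContDiff ComplexConjugate ComplexOrder

namespace Vale.Agent.P264.U

theorem herm_IBP {n : ℕ} {M : Matrix (Fin n) (Fin n) ℂ} (hM : M.IsHermitian) (u v : Fin n → ℂ) :
    (∑ a, ∑ b, u a * M b a * conj (v b)).re = (∑ a, ∑ b, v a * M b a * conj (u b)).re := by
  rw [← Complex.conj_re, Finset.sum_comm]
  simp only [map_sum, map_mul, Complex.conj_conj]
  refine congrArg Complex.re (Finset.sum_congr rfl fun a _ => Finset.sum_congr rfl fun b _ => ?_)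
  rw [← hM.apply b a, Complex.star_def]
  ring

theorem pt_IBP {Φ α β : V → ℝ} (h : Pot Φ) (hα : LogHom 0 α) (hβ : LogHom 0 β) {Z : V}
    (hZ : Z ≠ 0) : ∑ a, (dz (flux Φ α β a) a Z).re = α Z * lap Φ β Z * Vol Φ Z +
      (∑ a, ∑ b, gr α Z a * cof Φ Z b a * conj (gr β Z b)).re := by
  have e : ((α Z : ℂ) * (cof Φ Z * cHess β Z).trace).re = α Z * lap Φ β Z * Vol Φ Z := by
    unfold cof lap
    rw [h.det_eq hZ, Matrix.smul_mul, trace_smul, smul_eq_mul, Complex.re_ofReal_mul,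
      Complex.re_ofReal_mul, mul_assoc, mul_comm (Vol Φ Z)]
  rw [← Complex.re_sum, flux_div h hα hβ hZ, Complex.add_re, e]

theorem dz_cont_IBP {X : V → ℂ} (hX : ContDiffOn ℝ ∞ X Om) (a : Fin 8) :
    ContinuousOn (fun Z => (dz X a Z).re) Om := by
  have h := hX.continuousOn_fderiv_of_isOpen isOpen_Om (by exact_mod_cast le_top)
  exact Complex.continuous_re.comp_continuousOn (continuousOn_const.mul
    ((h.clm_apply continuousOn_const).sub (continuousOn_const.mul (h.clm_apply continuousOn_const))))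

theorem zero_IBP {Φ α β : V → ℝ} (h : Pot Φ) (hα : LogHom 0 α) (hβ : LogHom 0 β) :
    II (fun Z => ∑ a, (dz (flux Φ α β a) a Z).re) = 0 := by
  rw [II_sum _ fun a _ => dz_cont_IBP (flux_smooth h hα hβ a) a]
  exact Finset.sum_eq_zero fun a _ => II_dz (flux_smooth h hα hβ a) (flux_hom h hα hβ a) a

theorem ibp_cont {Φ α β : V → ℝ} (h : Pot Φ) (hα : LogHom 0 α) (hβ : ContDiffOn ℝ ∞ β Om) :
    ContinuousOn (fun Z => α Z * lap Φ β Z * Vol Φ Z) Om := fun _ hZ =>
  (((hα.at hZ).continuousAt.mul (h.lap_at hZ (hβ.contDiffAt (Om_nhds hZ))).continuousAt).mul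
    (h.vol_at hZ).continuousAt).continuousWithinAt

theorem ibp {Φ α β : V → ℝ} (h : Pot Φ) (hα : LogHom 0 α) (hβ : LogHom 0 β) :
    II (fun Z => α Z * lap Φ β Z * Vol Φ Z) = II (fun Z => β Z * lap Φ α Z * Vol Φ Z) := by
  have c : ∀ {α β : V → ℝ}, LogHom 0 α → LogHom 0 β →
      ContinuousOn (fun Z => ∑ a, (dz (flux Φ α β a) a Z).re) Om := fun hα hβ =>
    continuousOn_finsetSum _ fun a _ => dz_cont_IBP (flux_smooth h hα hβ a) a
  have e := II_sub (c hα hβ) (c hβ hα)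
  rw [zero_IBP h hα hβ, zero_IBP h hβ hα, sub_zero] at e
  rw [← sub_eq_zero, ← II_sub (ibp_cont h hα hβ.smooth) (ibp_cont h hβ hα.smooth), ← e]
  refine II_congr fun Z hZ => ?_
  rw [pt_IBP h hα hβ (Kc_sub hZ), pt_IBP h hβ hα (Kc_sub hZ),
    herm_IBP (cof_herm h (Kc_sub hZ)) (gr α Z), add_sub_add_right_eq_sub]

theorem ibp_one {Φ β : V → ℝ} (h : Pot Φ) (hβ : LogHom 0 β) :
    II (fun Z => 1 * lap Φ β Z * Vol Φ Z) = 0 := by
  rw [ibp h logHom_one hβ]
  have e : ∀ Z, lap Φ (fun _ => 1) Z = 0 := fun Z => by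
    unfold lap
    rw [cHess_const, Matrix.mul_zero, trace_zero, Complex.zero_re]
  simp only [e, mul_zero, zero_mul, II, integral_zero]

end Vale.Agent.P264.U
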