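import Vale.Agent.P264.U.Defs

/-! P264 U/Int (TASK): basic properties of `II`, and its time dependence.
Integrability: `ContinuousOn.integrableOn_compact isCompact_Kc` (`Kc_sub`, `contDiff_eta`, `contDiff_nsq_U`).
`II_eq_zero`: the function `eta (nsq Z) * f Z` is `≥ 0`; `setIntegral_eq_zero_iff_of_nonneg_ae`, restrict to the open set
`{1 < nsq < 4}`, `MeasureTheory.Measure.eqOn_open_of_ae_eq` (or `IsOpen.measure_pos` on the open set where it is `> 0`).
`sm_dt`: `g p = fderivWithin ℝ F Dom p (1, 0)` (`ContDiffOn.continuousOn_fderivWithin`, `Dom` is a neighbourhood for `t > 0`).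
`II_cont`: `continuousOn_of_dominated` or `MeasureTheory.continuousWithinAt_of_dominated` with the bound `dom_bdd`.
`II_deriv`: `hasDerivAt_integral_of_dominated_loc_of_deriv_le`, bound from `dom_bdd`.
`dom_small`: uniform continuity on the compact set `Icc t0 (t0 + 1) ×ˢ Kc`. -/

noncomputable section

open Set Filter Topology MeasureTheory Matrix
open scoped ContDiff ComplexConjugate ComplexOrder

namespace Vale.Agent.P264.U

theorem meas_Int : MeasurableSet Kc := isCompact_Kc.isClosed.measurableSet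

theorem cont_Int : Continuous fun Z : V => eta (nsq Z) :=
  contDiff_eta.continuous.comp contDiff_nsq_U.continuous

theorem int_Int {f : V → ℝ} (hf : ContinuousOn f Om) :
    IntegrableOn (fun Z => eta (nsq Z) * f Z) Kc :=
  (cont_Int.continuousOn.mul (hf.mono Kc_sub)).integrableOn_compact isCompact_Kc

theorem slice_Int {g : ℝ × V → ℝ} (hg : ContinuousOn g Dom) {t : ℝ} (ht : 0 ≤ t) :
    ContinuousOn (fun Z => g (t, Z)) Om :=
  hg.comp (continuous_const.prodMk continuous_id).continuousOn fun _ hZ => ⟨ht, hZ⟩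

theorem nhds_Int {t : ℝ} (ht : 0 < t) {Z : V} (hZ : Z ≠ 0) : Dom ∈ 𝓝 (t, Z) :=
  prod_mem_nhds (Ici_mem_nhds ht) (Om_nhds hZ)

theorem II_congr {f g : V → ℝ} (h : ∀ Z ∈ Kc, f Z = g Z) : II f = II g :=
  setIntegral_congr_fun meas_Int fun Z hZ => by simp only [h Z hZ]

theorem II_add {f g : V → ℝ} (hf : ContinuousOn f Om) (hg : ContinuousOn g Om) :
    II (fun Z => f Z + g Z) = II f + II g := by
  simp only [II, mul_add]
  exact integral_add (int_Int hf) (int_Int hg)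

theorem II_sub {f g : V → ℝ} (hf : ContinuousOn f Om) (hg : ContinuousOn g Om) :
    II (fun Z => f Z - g Z) = II f - II g := by
  simp only [II, mul_sub]
  exact integral_sub (int_Int hf) (int_Int hg)

theorem II_mul (c : ℝ) (f : V → ℝ) : II (fun Z => c * f Z) = c * II f := by
  simp only [II, mul_left_comm _ c]
  exact integral_const_mul _ _

theorem II_sum {ι : Type} (s : Finset ι) {f : ι → V → ℝ} (hf : ∀ i ∈ s, ContinuousOn (f i) Om) :
    II (fun Z => ∑ i ∈ s, f i Z) = ∑ i ∈ s, II (f i) := by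
  simp only [II, Finset.mul_sum]
  exact integral_finsetSum s fun i hi => int_Int (hf i hi)

theorem II_mono {f g : V → ℝ} (hf : ContinuousOn f Om) (hg : ContinuousOn g Om)
    (h : ∀ Z ∈ Kc, f Z ≤ g Z) : II f ≤ II g :=
  setIntegral_mono_on (int_Int hf) (int_Int hg) meas_Int fun Z hZ =>
    mul_le_mul_of_nonneg_left (h Z hZ) (eta_nonneg _)

theorem II_eq_zero {f : V → ℝ} (hf : ContinuousOn f Om) (h0 : ∀ Z ∈ Kc, 0 ≤ f Z) (h : II f ≤ 0)
    {Z : V} (h1 : 1 < nsq Z) (h2 : nsq Z < 4) : f Z = 0 := by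
  have hn : 0 ≤ᵐ[volume.restrict Kc] fun Z => eta (nsq Z) * f Z :=
    (ae_restrict_mem meas_Int).mono fun Z hZ => mul_nonneg (eta_nonneg _) (h0 Z hZ)
  have a1 := (setIntegral_eq_zero_iff_of_nonneg_ae hn (int_Int hf)).1
    (le_antisymm h (integral_nonneg_of_ae hn))
  have hc := (contDiff_nsq_U (n := 8)).continuous
  have hO : IsOpen {Z : V | 1 < nsq Z ∧ nsq Z < 4} :=
    (isOpen_lt continuous_const hc).inter (isOpen_lt hc continuous_const)
  have hsub : {Z : V | 1 < nsq Z ∧ nsq Z < 4} ⊆ Kc := fun Z hZ => ⟨hZ.1.le, hZ.2.le⟩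
  have a2 := Measure.eqOn_open_of_ae_eq (ae_restrict_of_ae_restrict_of_subset hsub a1) hO
    (cont_Int.continuousOn.mul (hf.mono (hsub.trans Kc_sub))) continuousOn_const ⟨h1, h2⟩
  exact (mul_eq_zero.1 a2).resolve_left (eta_pos h1 h2).ne'

theorem sm_dt {f : ℝ → V → ℝ} (hf : Sm f) : ∃ g : ℝ × V → ℝ, ContinuousOn g Dom ∧
    ∀ t, 0 < t → ∀ Z, Z ≠ 0 → HasDerivAt (fun τ => f τ Z) (g (t, Z)) t := by
  have hu : UniqueDiffOn ℝ Dom := (uniqueDiffOn_Ici 0).prod isOpen_Om.uniqueDiffOn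
  refine ⟨fun p => fderivWithin ℝ (fun p : ℝ × V => f p.1 p.2) Dom p (1, 0),
    (hf.continuousOn_fderivWithin hu (by exact_mod_cast le_top)).clm_apply continuousOn_const,
    fun t ht Z hZ => ?_⟩
  have hn := nhds_Int ht hZ
  have h1 := ((hf.contDiffAt hn).differentiableAt (by simp)).hasFDerivAt
  have h2 : HasDerivAt (fun τ : ℝ => ((τ, Z) : ℝ × V)) (1, 0) t :=
    (hasDerivAt_id t).prodMk (hasDerivAt_const t Z)
  simp only [fderivWithin_of_mem_nhds hn]
  exact h1.comp_hasDerivAt t h2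

theorem dom_bdd {g : ℝ × V → ℝ} (hg : ContinuousOn g Dom) (T : ℝ) :
    ∃ C, 0 ≤ C ∧ ∀ t ∈ Icc 0 T, ∀ Z ∈ Kc, |g (t, Z)| ≤ C := by
  obtain ⟨C, hC⟩ := ((isCompact_Icc (a := (0 : ℝ)) (b := T)).prod
    isCompact_Kc).exists_bound_of_continuousOn
    (hg.mono (prod_mono Icc_subset_Ici_self Kc_sub))
  exact ⟨max C 0, le_max_right _ _, fun t ht Z hZ => (hC (t, Z) ⟨ht, hZ⟩).trans (le_max_left _ _)⟩

theorem dom_small {g : ℝ × V → ℝ} (hg : ContinuousOn g Dom) {t0 : ℝ} (ht : 0 ≤ t0)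
    (h0 : ∀ Z ∈ Kc, g (t0, Z) = 0) {δ : ℝ} (hδ : 0 < δ) :
    ∃ ε, 0 < ε ∧ ε ≤ 1 ∧ ∀ t ∈ Icc t0 (t0 + ε), ∀ Z ∈ Kc, g (t, Z) ≤ δ := by
  have hu := ((isCompact_Icc (a := t0) (b := t0 + 1)).prod
    isCompact_Kc).uniformContinuousOn_of_continuous
    (hg.mono (prod_mono (fun t h => ht.trans h.1) Kc_sub))
  obtain ⟨r, r0, hr⟩ := Metric.uniformContinuousOn_iff_le.1 hu δ hδ
  refine ⟨min r 1, lt_min r0 one_pos, min_le_right _ _, fun t h Z hZ => ?_⟩
  have a1 := min_le_left r 1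
  have a2 := min_le_right r 1
  have a3 := hr (t, Z) ⟨⟨h.1, by linarith [h.2]⟩, hZ⟩ (t0, Z) ⟨⟨le_rfl, by linarith⟩, hZ⟩ (by
    rw [Prod.dist_eq, dist_self, Real.dist_eq, abs_of_nonneg (sub_nonneg.2 h.1)]
    exact max_le (by linarith [h.2]) r0.le)
  rw [h0 Z hZ, Real.dist_eq, sub_zero] at a3
  exact (le_abs_self _).trans a3

theorem II_cont {f : ℝ → V → ℝ} (hf : Sm f) : ContinuousOn (fun t => II (f t)) (Ici 0) := by
  intro t0 ht0
  obtain ⟨C, -, hC⟩ := dom_bdd hf.continuousOn (t0 + 1)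
  have hn : Icc 0 (t0 + 1) ∈ 𝓝[Ici 0] t0 := by
    rw [← Ici_inter_Iic]
    exact inter_mem_nhdsWithin _ (Iic_mem_nhds (lt_add_one t0))
  refine continuousWithinAt_of_dominated (bound := fun Z => eta (nsq Z) * C) ?_ ?_
    (int_Int continuousOn_const) ?_
  · filter_upwards [hn] with t ht
    exact (int_Int (slice_Int hf.continuousOn ht.1)).1
  · filter_upwards [hn] with t ht
    filter_upwards [ae_restrict_mem meas_Int] with Z hZ
    rw [Real.norm_eq_abs, abs_mul, abs_of_nonneg (eta_nonneg _)]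
    exact mul_le_mul_of_nonneg_left (hC t ht Z hZ) (eta_nonneg _)
  · filter_upwards [ae_restrict_mem meas_Int] with Z hZ
    have h1 : ContinuousOn (fun t : ℝ => f t Z) (Ici 0) :=
      hf.continuousOn.comp (f := fun t : ℝ => (t, Z))
        (continuous_id.prodMk continuous_const).continuousOn fun _ h => ⟨h, Kc_sub hZ⟩
    exact continuousWithinAt_const.mul (h1 t0 ht0)

theorem II_deriv {f : ℝ → V → ℝ} (hf : Sm f) {g : ℝ × V → ℝ} (hg : ContinuousOn g Dom)
    (hd : ∀ t, 0 < t → ∀ Z, Z ≠ 0 → HasDerivAt (fun τ => f τ Z) (g (t, Z)) t) {t : ℝ} (ht : 0 < t) :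
    HasDerivAt (fun τ => II (f τ)) (II fun Z => g (t, Z)) t := by
  obtain ⟨C, -, hC⟩ := dom_bdd hg (t + 1)
  have hn : Ioo 0 (t + 1) ∈ 𝓝 t := Ioo_mem_nhds ht (lt_add_one t)
  refine (hasDerivAt_integral_of_dominated_loc_of_deriv_le (μ := volume.restrict Kc)
    (F := fun τ Z => eta (nsq Z) * f τ Z) (F' := fun τ Z => eta (nsq Z) * g (τ, Z))
    (bound := fun Z => eta (nsq Z) * C) hn ?_ (int_Int (slice_Int hf.continuousOn ht.le))
    (int_Int (slice_Int hg ht.le)).1 ?_ (int_Int continuousOn_const) ?_).2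
  · filter_upwards [hn] with τ hτ
    exact (int_Int (slice_Int hf.continuousOn hτ.1.le)).1
  · filter_upwards [ae_restrict_mem meas_Int] with Z hZ τ hτ
    rw [Real.norm_eq_abs, abs_mul, abs_of_nonneg (eta_nonneg _)]
    exact mul_le_mul_of_nonneg_left (hC τ ⟨hτ.1.le, hτ.2.le⟩ Z hZ) (eta_nonneg _)
  · filter_upwards [ae_restrict_mem meas_Int] with Z hZ τ hτ
    exact (hd τ hτ.1 Z (Kc_sub hZ)).const_mul _

end Vale.Agent.P264.U
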