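import Vale.Agent.P264.U.Calc

/-! P264 U/Lin (TASK): complex affine changes of variables.
`gr_affine`: chain rule with the real continuous linear map `y ↦ A *ᵥ y` (`LinearMap.toContinuousLinearMap`,
`restrictScalars`), `A *ᵥ single i c = c • column i`, then `gr_dot` with `w = column i`.
`cHess_affine`: near `z`, `conj (gr (f ∘ L) y j) = ∑ b, conj (A b j) * conj (gr f (L y) b)` by `gr_affine`; use
`cHess_eq_dz`, `dz_sum` and the chain rule `dz (g ∘ L) i z = ∑ a, dz g a (L z) * A a i` for complex valued `g`: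
`D(g ∘ L)(e_i) - I D(g ∘ L)(I e_i) = Dg(w) - I Dg(I w)`, `w = column i`, and
`(1/2)(Dg(w) - I Dg(I w)) = ∑ a, dz g a * w a` for every real linear `Dg` (same proof as `gr_dot`).
`cHess_chart`: `chart j y = single j 1 + E *ᵥ y` with `E a i = if a = j.succAbove i then 1 else 0`. -/

noncomputable section

open Set Filter Topology MeasureTheory Matrix
open scoped ContDiff ComplexConjugate ComplexOrder

namespace Vale.Agent.P264.U

/-- The real continuous linear map of a complex matrix. -/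
def map_Lin {m n : ℕ} (A : Matrix (Fin m) (Fin n) ℂ) : (Fin n → ℂ) →L[ℝ] (Fin m → ℂ) :=
  (LinearMap.toContinuousLinearMap (Matrix.mulVecLin A)).restrictScalars ℝ

theorem map_apply_Lin {m n : ℕ} (A : Matrix (Fin m) (Fin n) ℂ) (y : Fin n → ℂ) :
    map_Lin A y = A *ᵥ y := rfl

theorem der_Lin {m n : ℕ} (A : Matrix (Fin m) (Fin n) ℂ) (p : Fin m → ℂ) (z : Fin n → ℂ) :
    HasFDerivAt (fun y => p + A *ᵥ y) (map_Lin A) z :=
  (map_Lin A).hasFDerivAt.const_add p

theorem smooth_Lin {m n : ℕ} (A : Matrix (Fin m) (Fin n) ℂ) (p : Fin m → ℂ) :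
    ContDiff ℝ ∞ fun y : Fin n → ℂ => p + A *ᵥ y :=
  contDiff_const.add (map_Lin A).contDiff

theorem dec_Lin {n : ℕ} (B : (Fin n → ℂ) →L[ℝ] ℂ) (w : Fin n → ℂ) :
    B w = ∑ a, (((w a).re : ℂ) * B (Pi.single a 1) + ((w a).im : ℂ) * B (Pi.single a Complex.I)) := by
  have e : w = ∑ a, ((w a).re • (Pi.single a 1 : Fin n → ℂ) +
      (w a).im • (Pi.single a Complex.I : Fin n → ℂ)) := by
    funext b
    simp [Finset.sum_apply, Pi.single_apply, Finset.sum_add_distrib]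
  conv_lhs => rw [e]
  simp only [map_sum, map_add, map_smul, Complex.real_smul]

theorem dot_Lin {n : ℕ} (B : (Fin n → ℂ) →L[ℝ] ℂ) (w : Fin n → ℂ) :
    (1 / 2 : ℂ) * (B w - Complex.I * B (Complex.I • w)) =
      ∑ a, (1 / 2 : ℂ) * (B (Pi.single a 1) - Complex.I * B (Pi.single a Complex.I)) * w a := by
  rw [dec_Lin B w, dec_Lin B (Complex.I • w), Finset.mul_sum, ← Finset.sum_sub_distrib,
    Finset.mul_sum]
  refine Finset.sum_congr rfl fun a _ => ?_
  conv_rhs => rw [← Complex.re_add_im (w a)]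
  simp only [Pi.smul_apply, smul_eq_mul, Complex.I_mul_re, Complex.I_mul_im, Complex.ofReal_neg]
  linear_combination
    (1 / 2 : ℂ) * ((w a).im : ℂ) * B (Pi.single a Complex.I) * Complex.I_mul_I

theorem dz_Lin {m n : ℕ} (A : Matrix (Fin m) (Fin n) ℂ) (p : Fin m → ℂ) {g : (Fin m → ℂ) → ℂ}
    {z : Fin n → ℂ} (hg : DifferentiableAt ℝ g (p + A *ᵥ z)) (i : Fin n) :
    dz (fun y => g (p + A *ᵥ y)) i z = ∑ a, dz g a (p + A *ᵥ z) * A a i := by
  have h : fderiv ℝ (fun y => g (p + A *ᵥ y)) z = _ :=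
    (hg.hasFDerivAt.comp z (der_Lin A p z)).fderiv
  have e1 : A *ᵥ (Pi.single i 1 : Fin n → ℂ) = fun a => A a i := by
    funext a
    simp [mulVec, dotProduct, Pi.single_apply]
  have e2 : A *ᵥ (Pi.single i Complex.I : Fin n → ℂ) = Complex.I • fun a => A a i := by
    funext a
    simp [mulVec, dotProduct, Pi.single_apply, mul_comm]
  rw [dz, h, ContinuousLinearMap.comp_apply, ContinuousLinearMap.comp_apply, map_apply_Lin,
    map_apply_Lin, e1, e2, dot_Lin]
  rfl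

theorem gr_affine {m n : ℕ} (A : Matrix (Fin m) (Fin n) ℂ) (p : Fin m → ℂ) {f : (Fin m → ℂ) → ℝ}
    {z : Fin n → ℂ} (hf : DifferentiableAt ℝ f (p + A *ᵥ z)) :
    gr (fun y => f (p + A *ᵥ y)) z = gr f (p + A *ᵥ z) ᵥ* A := by
  funext i
  have h1 : DifferentiableAt ℝ (fun y => f (p + A *ᵥ y)) z :=
    hf.comp z (der_Lin A p z).differentiableAt
  have h2 : DifferentiableAt ℝ (fun y => (f y : ℂ)) (p + A *ᵥ z) :=
    Complex.ofRealCLM.differentiableAt.comp _ hf
  rw [← dz_ofReal h1, dz_Lin A p h2]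
  simp only [dz_ofReal hf]
  rfl

theorem cHess_affine {m n : ℕ} (A : Matrix (Fin m) (Fin n) ℂ) (p : Fin m → ℂ)
    {f : (Fin m → ℂ) → ℝ} {z : Fin n → ℂ} (hf : ContDiffAt ℝ 2 f (p + A *ᵥ z)) :
    cHess (fun y => f (p + A *ᵥ y)) z = Aᵀ * cHess f (p + A *ᵥ z) * Aᵀᴴ := by
  ext i j
  have h1 : ContDiffAt ℝ 2 (fun y => f (p + A *ᵥ y)) z :=
    hf.comp z ((smooth_Lin A p).of_le (nat_le_inf 2)).contDiffAt
  have h2 : ∀ b, DifferentiableAt ℝ (fun y => conj (gr f y b)) (p + A *ᵥ z) := fun b =>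
    Complex.conjCLE.differentiableAt.comp _
      ((contDiffAt_gr (m := 1) hf (by norm_num) b).differentiableAt one_ne_zero)
  have h3 : (fun y => conj (gr (fun y => f (p + A *ᵥ y)) y j)) =ᶠ[𝓝 z]
      fun y => ∑ b, conj (gr f (p + A *ᵥ y) b) * conj (A b j) := by
    filter_upwards [(der_Lin A p z).continuousAt.eventually (hf.eventually (by simp))] with y hy
    rw [gr_affine A p (hy.differentiableAt (by simp))]
    simp only [vecMul, dotProduct, map_sum, map_mul]
  have h4 : ∀ b, DifferentiableAt ℝ (fun y => conj (gr f (p + A *ᵥ y) b)) z := fun b =>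
    DifferentiableAt.comp (g := fun y => conj (gr f y b)) z (h2 b)
      (der_Lin A p z).differentiableAt
  rw [cHess_eq_dz h1, dz_congr h3, dz_sum _ fun b _ => (h4 b).mul_const _, Matrix.mul_apply]
  refine Finset.sum_congr rfl fun b _ => ?_
  rw [dz_mul (h4 b) (differentiableAt_const _), dz_const, mul_zero, add_zero,
    dz_Lin A p (h2 b), Matrix.mul_apply]
  simp only [← cHess_eq_dz hf, transpose_apply, conjTranspose_apply, mul_comm (A _ i)]
  rfl

theorem gr_lin {n : ℕ} (A : Matrix (Fin n) (Fin n) ℂ) {f : (Fin n → ℂ) → ℝ}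
    {z : Fin n → ℂ} (hf : DifferentiableAt ℝ f (A *ᵥ z)) :
    gr (fun y => f (A *ᵥ y)) z = gr f (A *ᵥ z) ᵥ* A := by
  simpa only [zero_add] using gr_affine A 0 (f := f) (z := z) (by rwa [zero_add])

theorem cHess_lin {n : ℕ} (A : Matrix (Fin n) (Fin n) ℂ) {f : (Fin n → ℂ) → ℝ}
    {z : Fin n → ℂ} (hf : ContDiffAt ℝ 2 f (A *ᵥ z)) :
    cHess (fun y => f (A *ᵥ y)) z = Aᵀ * cHess f (A *ᵥ z) * Aᵀᴴ := by
  simpa only [zero_add] using cHess_affine A 0 (f := f) (z := z) (by rwa [zero_add])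

theorem Gh_lin {n : ℕ} (A : Matrix (Fin n) (Fin n) ℂ) {f : (Fin n → ℂ) → ℝ}
    {z : Fin n → ℂ} (hf : ContDiffAt ℝ 2 f (A *ᵥ z)) :
    Gh (fun y => f (A *ᵥ y)) z = Aᵀ * Gh f (A *ᵥ z) * Aᵀᴴ := by
  rw [Gh, Gh, cHess_lin A hf, gr_lin A (hf.differentiableAt (by simp)), Matrix.mul_add,
    Matrix.add_mul]
  congr 1
  ext i j
  simp only [vv, vecMulVec_apply, Matrix.mul_apply, vecMul, dotProduct, Pi.star_apply, star_sum,
    star_mul', transpose_apply, conjTranspose_apply, Finset.sum_mul, Finset.mul_sum]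
  refine Finset.sum_congr rfl fun a _ => Finset.sum_congr rfl fun b _ => ?_
  ring

theorem gr_smul_arg {n : ℕ} (c : ℂ) {f : (Fin n → ℂ) → ℝ} {z : Fin n → ℂ}
    (hf : DifferentiableAt ℝ f (c • z)) : gr (fun y => f (c • y)) z = c • gr f (c • z) := by
  have e : ∀ y : Fin n → ℂ, (c • (1 : Matrix (Fin n) (Fin n) ℂ)) *ᵥ y = c • y := fun y => by
    rw [smul_mulVec, one_mulVec]
  have := gr_lin (c • (1 : Matrix (Fin n) (Fin n) ℂ)) (f := f) (z := z) (by rwa [e])
  simp only [e] at this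
  rw [this, vecMul_smul, vecMul_one]

theorem cHess_smul_arg {n : ℕ} (c : ℂ) {f : (Fin n → ℂ) → ℝ} {z : Fin n → ℂ}
    (hf : ContDiffAt ℝ 2 f (c • z)) :
    cHess (fun y => f (c • y)) z = ((‖c‖ ^ 2 : ℝ) : ℂ) • cHess f (c • z) := by
  have e : ∀ y : Fin n → ℂ, (c • (1 : Matrix (Fin n) (Fin n) ℂ)) *ᵥ y = c • y := fun y => by
    rw [smul_mulVec, one_mulVec]
  have := cHess_lin (c • (1 : Matrix (Fin n) (Fin n) ℂ)) (f := f) (z := z) (by rwa [e])
  simp only [e] at this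
  rw [this, transpose_smul, transpose_one, conjTranspose_smul, conjTranspose_one, Matrix.smul_mul,
    Matrix.one_mul, Matrix.mul_smul, Matrix.mul_one, smul_smul, ← Complex.normSq_eq_norm_sq,
    Complex.normSq_eq_conj_mul_self]
  rfl

/-- The coordinate embedding. -/
def emb_Lin (j : Fin 8) : Matrix (Fin 8) (Fin 7) ℂ :=
  Matrix.of fun a i => if a = j.succAbove i then 1 else 0

theorem chart_eq_Lin (j : Fin 8) (y : Fin 7 → ℂ) :
    chart j y = Pi.single j 1 + emb_Lin j *ᵥ y := by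
  funext a
  refine Fin.succAboveCases j ?_ (fun i => ?_) a
  · simp [chart, emb_Lin, mulVec, dotProduct]
  · simp [chart, emb_Lin, mulVec, dotProduct]

theorem contDiff_chart (j : Fin 8) : ContDiff ℝ ∞ (chart j) := by
  rw [funext (chart_eq_Lin j)]
  exact smooth_Lin _ _

theorem chart_self (j : Fin 8) (z : Fin 7 → ℂ) : chart j z j = 1 := by
  simp [chart]

theorem cHess_chart (j : Fin 8) {f : V → ℝ} {z : Fin 7 → ℂ} (hf : ContDiffAt ℝ 2 f (chart j z)) :
    cHess (fun y => f (chart j y)) z = (cHess f (chart j z)).submatrix j.succAbove j.succAbove := by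
  have := cHess_affine (emb_Lin j) (Pi.single j 1) (f := f) (z := z) (by rwa [← chart_eq_Lin])
  simp only [← chart_eq_Lin] at this
  rw [this]
  ext a b
  simp [Matrix.mul_apply, emb_Lin]

end Vale.Agent.P264.U
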