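import Vale.Agent.P264.U.Calc
import Vale.Agent.P264.U.Jac

/-! P264 U/Piola (TASK): the cofactor matrix of a complex Hessian is divergence free.
First the `dz` versions of `jac_fderiv_det`, `jac_fderiv_inv` (apply them to the two directions `single a 1`,
`single a I`). Then, with `M = cHess u`, `N = M⁻¹`:
`∑ a, dz (det M * N b a) a = det M (∑ a c d, N d c * dz (M c d) a * N b a - ∑ a c d, N b c * dz (M c d) a * N d a)`;
swap `a` and `c` in the second sum and use `dz_cHess_symm` (model: `piola` in `Vale/Agent/P252/Jacobi.lean`). -/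

noncomputable section

open Set Filter Topology MeasureTheory Matrix
open scoped ContDiff ComplexConjugate ComplexOrder

namespace Vale.Agent.P264.U

theorem dz_det_Piola {n : ℕ} {M : (Fin n → ℂ) → Matrix (Fin n) (Fin n) ℂ} {z : Fin n → ℂ}
    (hM : ∀ i j, ContDiffAt ℝ 1 (fun y => M y i j) z) (h0 : (M z).det ≠ 0) (a : Fin n) :
    dz (fun y => (M y).det) a z =
      (M z).det * ∑ i, ∑ j, (M z)⁻¹ i j * dz (fun y => M y j i) a z := by
  unfold dz
  rw [jac_fderiv_det hM h0, jac_fderiv_det hM h0]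
  simp only [Finset.mul_sum, ← Finset.sum_sub_distrib]
  exact Finset.sum_congr rfl fun i _ => Finset.sum_congr rfl fun j _ => by ring

theorem dz_inv_Piola {n : ℕ} {M : (Fin n → ℂ) → Matrix (Fin n) (Fin n) ℂ} {z : Fin n → ℂ}
    (hM : ∀ i j, ContDiffAt ℝ 1 (fun y => M y i j) z) (h0 : (M z).det ≠ 0) (a i j : Fin n) :
    dz (fun y => (M y)⁻¹ i j) a z =
      -∑ p, ∑ q, (M z)⁻¹ i p * dz (fun y => M y p q) a z * (M z)⁻¹ q j := by
  unfold dz
  rw [jac_fderiv_inv hM h0, jac_fderiv_inv hM h0]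
  simp only [← Finset.sum_neg_distrib, Finset.mul_sum, ← Finset.sum_sub_distrib]
  exact Finset.sum_congr rfl fun p _ => Finset.sum_congr rfl fun q _ => by ring

theorem alg_Piola {n : ℕ} (D : ℂ) (N : Fin n → Fin n → ℂ) (T : Fin n → Fin n → Fin n → ℂ)
    (hT : ∀ a c d, T a c d = T c a d) (b : Fin n) :
    ∑ a, ((D * ∑ i, ∑ j, N i j * T a j i) * N b a + D * -∑ p, ∑ q, N b p * T a p q * N q a) = 0 := by
  have h : ∑ a, (∑ i, ∑ j, N i j * T a j i) * N b a = ∑ a, ∑ p, ∑ q, N b p * T a p q * N q a := by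
    rw [Finset.sum_comm (f := fun a p => ∑ q, N b p * T a p q * N q a)]
    refine Finset.sum_congr rfl fun a _ => ?_
    rw [Finset.sum_comm, Finset.sum_mul]
    refine Finset.sum_congr rfl fun j _ => ?_
    rw [Finset.sum_mul]
    refine Finset.sum_congr rfl fun i _ => ?_
    rw [hT a j i]
    ring
  simp only [mul_assoc D, ← mul_add, ← Finset.mul_sum, Finset.sum_add_distrib,
    Finset.sum_neg_distrib]
  rw [h, add_neg_cancel, mul_zero]

theorem piola {n : ℕ} {u : (Fin n → ℂ) → ℝ} {z : Fin n → ℂ} (hu : ContDiffAt ℝ ∞ u z)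
    (h0 : (cHess u z).det ≠ 0) (b : Fin n) :
    ∑ a, dz (fun y => (cHess u y).det * (cHess u y)⁻¹ b a) a z = 0 := by
  have hM : ∀ i j, ContDiffAt ℝ 1 (fun y => cHess u y i j) z := fun i j =>
    contDiffAt_cHess hu (by exact_mod_cast nat_le_inf 3) i j
  rw [← alg_Piola (cHess u z).det (fun i j => (cHess u z)⁻¹ i j)
    (fun a c d => dz (fun y => cHess u y c d) a z) (fun a c d => dz_cHess_symm hu a c d) b]
  refine Finset.sum_congr rfl fun a _ => ?_
  rw [dz_mul ((jac_at_det hM).differentiableAt one_ne_zero)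
    ((jac_at_inv hM h0 b a).differentiableAt one_ne_zero), dz_det_Piola hM h0, dz_inv_Piola hM h0]

end Vale.Agent.P264.U
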