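import Vale.Agent.P264.U.Jac

/-! P264 U/Smooth (TASK): space-time smoothness up to `t = 0`.
`par_fderiv isOpen_Om` (file `A/Basic`) once for `gr`, twice for `d2`; `Complex.ofRealCLM.contDiff.comp_contDiffOn`,
`Complex.conjCLE`, `Complex.reCLM`; `jac_cd_det`, `jac_cd_inv`; traces are finite sums of products of entries
(`Matrix.trace`, `Matrix.mul_apply`, `ContDiffOn.sum`).
WARNING: unfold `Vol`, `Lam`, `tr2` by `unfold`/`simp only`, never by defeq. -/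

noncomputable section

open Set Filter Topology MeasureTheory Matrix
open scoped ContDiff ComplexConjugate ComplexOrder

namespace Vale.Agent.P264.U

theorem d1_Smooth {f : ℝ → V → ℝ} (hf : Sm f) (v : V) :
    Sm fun t y => fderiv ℝ (f t) y v :=
  par_fderiv isOpen_Om hf v

theorem c_Smooth {g : ℝ × V → ℝ} (hg : ContDiffOn ℝ ∞ g Dom) :
    ContDiffOn ℝ ∞ (fun p => ((g p : ℝ) : ℂ)) Dom :=
  Complex.ofRealCLM.contDiff.comp_contDiffOn hg

theorem re_Smooth {g : ℝ × V → ℂ} (hg : ContDiffOn ℝ ∞ g Dom) :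
    ContDiffOn ℝ ∞ (fun p => (g p).re) Dom :=
  Complex.reCLM.contDiff.comp_contDiffOn hg

theorem d2_Smooth {f : ℝ → V → ℝ} (hf : Sm f) (v w : V) :
    ContDiffOn ℝ ∞ (fun p : ℝ × V => ((d2 (f p.1) p.2 v w : ℝ) : ℂ)) Dom :=
  c_Smooth (d1_Smooth (d1_Smooth hf w) v)

theorem mul_Smooth {ι : Type} [Fintype ι] {A B : ℝ × V → Matrix ι ι ℂ}
    (hA : ∀ i j, ContDiffOn ℝ ∞ (fun p => A p i j) Dom)
    (hB : ∀ i j, ContDiffOn ℝ ∞ (fun p => B p i j) Dom) (i j : ι) :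
    ContDiffOn ℝ ∞ (fun p => (A p * B p) i j) Dom := by
  simp only [Matrix.mul_apply]
  exact ContDiffOn.sum fun k _ => (hA i k).mul (hB k j)

theorem tr_Smooth {ι : Type} [Fintype ι] {A : ℝ × V → Matrix ι ι ℂ}
    (hA : ∀ i j, ContDiffOn ℝ ∞ (fun p => A p i j) Dom) :
    ContDiffOn ℝ ∞ (fun p => (A p).trace) Dom := by
  simp only [Matrix.trace, Matrix.diag_apply]
  exact ContDiffOn.sum fun k _ => hA k k

theorem sm_gr {f : ℝ → V → ℝ} (hf : Sm f) (a : Fin 8) :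
    ContDiffOn ℝ ∞ (fun p : ℝ × V => gr (f p.1) p.2 a) Dom :=
  contDiffOn_const.mul ((c_Smooth (d1_Smooth hf _)).sub
    (contDiffOn_const.mul (c_Smooth (d1_Smooth hf _))))

theorem sm_cHess {f : ℝ → V → ℝ} (hf : Sm f) (a b : Fin 8) :
    ContDiffOn ℝ ∞ (fun p : ℝ × V => cHess (f p.1) p.2 a b) Dom :=
  contDiffOn_const.mul (((d2_Smooth hf _ _).add (d2_Smooth hf _ _)).add
    (contDiffOn_const.mul ((d2_Smooth hf _ _).sub (d2_Smooth hf _ _))))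

theorem sm_Gh {f : ℝ → V → ℝ} (hf : Sm f) (a b : Fin 8) :
    ContDiffOn ℝ ∞ (fun p : ℝ × V => Gh (f p.1) p.2 a b) Dom := by
  have h : ContDiffOn ℝ ∞ (fun p : ℝ × V => star (gr (f p.1) p.2 b)) Dom :=
    Complex.conjCLE.contDiff.comp_contDiffOn (sm_gr hf b)
  simp only [Gh, vv, Matrix.add_apply, vecMulVec_apply, Pi.star_apply]
  exact (sm_cHess hf a b).add ((sm_gr hf a).mul h)

theorem sm_vol {Φ : ℝ → V → ℝ} (h : Sm Φ) : Sm fun t => Vol (Φ t) := by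
  unfold Sm Vol
  exact re_Smooth fun p hp =>
    jac_cd_det (M := fun p : ℝ × V => Gh (Φ p.1) p.2) fun i j => sm_Gh h i j p hp

theorem sm_lam {Φ : ℝ → V → ℝ} (h : Sm Φ) (hp : ∀ t, 0 ≤ t → Pot (Φ t)) :
    Sm fun t => Lam (Φ t) := by
  have hv := sm_vol h
  unfold Sm at hv ⊢
  unfold Lam
  exact hv.log fun p hq => ((hp p.1 hq.1).vol_pos hq.2).ne'

theorem sm_tr2 {Φ β : ℝ → V → ℝ} (h : Sm Φ) (hp : ∀ t, 0 ≤ t → Pot (Φ t)) (hβ : Sm β) :
    Sm fun t => tr2 (Φ t) (β t) := by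
  have hi : ∀ i j, ContDiffOn ℝ ∞ (fun p : ℝ × V => (Gh (Φ p.1) p.2)⁻¹ i j) Dom :=
    fun i j p hq => jac_cd_inv (M := fun p : ℝ × V => Gh (Φ p.1) p.2)
      (fun i j => sm_Gh h i j p hq) ((hp p.1 hq.1).det_ne hq.2) i j
  unfold Sm tr2
  exact re_Smooth (tr_Smooth (mul_Smooth (mul_Smooth (mul_Smooth hi (sm_cHess hβ)) hi)
    (sm_cHess hβ)))

end Vale.Agent.P264.U
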