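import Vale.Agent.P264.U.Energy
import Vale.Agent.P264.U.Smooth

/-! P264 U/Uniq (helper76): uniqueness of the Calabi flow on the cone. -/

noncomputable section

open Set Filter Topology MeasureTheory Matrix
open scoped ContDiff ComplexConjugate ComplexOrder

namespace Vale.Agent.P264.U

theorem gron_Uniq {E E' : ℝ → ℝ} {a b C : ℝ} (hc : ContinuousOn E (Icc a b))
    (hd : ∀ t ∈ Ioo a b, HasDerivAt E (E' t) t) (hle : ∀ t ∈ Ioo a b, E' t ≤ C * E t)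
    (h0 : E a = 0) {t : ℝ} (ht : t ∈ Icc a b) : E t ≤ 0 := by
  have hh : ∀ t ∈ Ioo a b, HasDerivAt (fun t => Real.exp (-C * t) * E t)
      (Real.exp (-C * t) * (-C * 1) * E t + Real.exp (-C * t) * E' t) t := fun t ht =>
    (((hasDerivAt_id t).const_mul (-C)).exp).mul (hd t ht)
  have ha : AntitoneOn (fun t => Real.exp (-C * t) * E t) (Icc a b) := by
    refine antitoneOn_of_deriv_nonpos (convex_Icc a b)
      ((by fun_prop : Continuous fun t => Real.exp (-C * t)).continuousOn.mul hc) ?_ ?_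
    · rw [interior_Icc]
      exact fun t ht => (hh t ht).differentiableAt.differentiableWithinAt
    · rw [interior_Icc]
      intro t ht
      rw [(hh t ht).deriv]
      have := mul_le_mul_of_nonneg_left (hle t ht) (Real.exp_pos (-C * t)).le
      linarith
  have h1 := ha ⟨le_rfl, ht.1.trans ht.2⟩ ht ht.1
  simp only [h0, mul_zero] at h1
  exact nonpos_of_mul_nonpos_right h1 (Real.exp_pos _) |>.trans le_rfl

theorem zero_Uniq {β : V → ℝ} (hβ : LogHom 0 β) (h : ∀ Z, 1 < nsq Z → nsq Z < 4 → β Z = 0)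
    {Z : V} (hZ : Z ≠ 0) : β Z = 0 := by
  have hp := nsq_pos_U hZ
  have hs : 0 < √(2 / nsq Z) := Real.sqrt_pos.2 (by positivity)
  have hc : ((√(2 / nsq Z) : ℝ) : ℂ) ≠ 0 := Complex.ofReal_ne_zero.2 hs.ne'
  have h1 : nsq (((√(2 / nsq Z) : ℝ) : ℂ) • Z) = 2 := by
    rw [nsq_smul_U, Complex.norm_real, Real.norm_of_nonneg hs.le, Real.sq_sqrt (by positivity)]
    field_simp
  have h2 := hβ.hom _ Z hc hZ
  rw [h _ (by rw [h1]; norm_num) (by rw [h1]; norm_num)] at h2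
  linarith

theorem loc_Uniq {κ : ℝ} {Φ Ψ : ℝ → V → ℝ} (h1 : Flow κ Φ) (h2 : Flow κ Ψ) {t0 : ℝ} (ht0 : 0 ≤ t0)
    (h0 : ∀ Z, Z ≠ 0 → Φ t0 Z = Ψ t0 Z) :
    ∃ ε, 0 < ε ∧ ∀ t ∈ Icc t0 (t0 + ε), ∀ Z, Z ≠ 0 → Φ t Z = Ψ t Z := by
  have sβ : Sm fun t y => Φ t y - Ψ t y := ContDiffOn.sub h1.smooth h2.smooth
  have sV := sm_vol h1.smooth
  have sQ := sm_tr2 h1.smooth h1.pot sβ
  have sW := sm_tr2 h1.smooth h1.pot (sm_lam h2.smooth h2.pot)
  have sE : Sm fun t Z => (Φ t Z - Ψ t Z) ^ 2 * Vol (Φ t) Z := ContDiffOn.mul (ContDiffOn.pow sβ 2) sV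
  obtain ⟨ε, hε, hε1, hQ⟩ := dom_small sQ.continuousOn ht0 (fun Z hZ => by
    have hZ0 : Z ≠ 0 := Kc_sub hZ
    have e : (fun y => Φ t0 y - Ψ t0 y) =ᶠ[𝓝 Z] fun _ => 0 := by
      filter_upwards [Om_nhds hZ0] with y hy
      rw [h0 y hy, sub_self]
    show tr2 (Φ t0) (fun y => Φ t0 y - Ψ t0 y) Z = 0
    unfold tr2
    rw [cHess_congr e, cHess_const, Matrix.mul_zero, Matrix.trace_zero, Complex.zero_re])
    (δ := 1 / 10 ^ 4) (by norm_num)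
  obtain ⟨C1, -, hW⟩ := dom_bdd sW.continuousOn (t0 + 1)
  obtain ⟨g, gc, gd⟩ := sm_dt sV
  have hVp : ∀ p ∈ Dom, 0 < Vol (Φ p.1) p.2 := fun p hp => (h1.pot p.1 hp.1).vol_pos hp.2
  obtain ⟨C2, -, hg⟩ := dom_bdd (gc.div sV.continuousOn fun p hp => (hVp p hp).ne') (t0 + 1)
  obtain ⟨G, Gc, Gd⟩ := sm_dt sE
  refine ⟨ε, hε, fun t ht Z hZ => ?_⟩
  have ht' : 0 ≤ t := ht0.trans ht.1
  have hβ := (h1.pot t ht').hom.sub0 (h2.pot t ht').hom
  have hE : II (fun Z => (Φ t Z - Ψ t Z) ^ 2 * Vol (Φ t) Z) ≤ 0 := by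
    refine gron_Uniq (E := fun t => II fun Z => (Φ t Z - Ψ t Z) ^ 2 * Vol (Φ t) Z)
      (E' := fun t => II fun Z => G (t, Z)) (C := 4 * C1 + C2)
      ((II_cont sE).mono fun s hs => ht0.trans hs.1)
      (fun s hs => II_deriv sE Gc Gd (ht0.trans_lt hs.1)) (fun s hs => ?_) ?_ ht
    · have hs0 : 0 < s := ht0.trans_lt hs.1
      have hs1 : s ∈ Icc 0 (t0 + 1) := ⟨hs0.le, by linarith [hs.2]⟩
      have p1 := h1.pot s hs0.le
      have p2 := h2.pot s hs0.le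
      have cψ := (p1.hom.sub0 p2.hom).smooth.continuousOn
      have cE : ContinuousOn (fun Z => (Φ s Z - Ψ s Z) ^ 2 * Vol (Φ s) Z) Om :=
        (cψ.pow 2).mul p1.vol_cont
      have cE' : ContinuousOn (fun Z => C2 * ((Φ s Z - Ψ s Z) ^ 2 * Vol (Φ s) Z)) Om :=
        continuousOn_const.mul cE
      have cL : ContinuousOn
          (fun Z => 2 * (Φ s Z - Ψ s Z) * (Sc (Φ s) Z - Sc (Ψ s) Z) * Vol (Φ s) Z) Om :=
        ((continuousOn_const.mul cψ).mul (p1.sc_cont.sub p2.sc_cont)).mul p1.vol_cont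
      have cS : ContinuousOn (fun Z => 2 * (Φ s Z - Ψ s Z) * (Sc (Φ s) Z - Sc (Ψ s) Z) *
          Vol (Φ s) Z + C2 * ((Φ s Z - Ψ s Z) ^ 2 * Vol (Φ s) Z)) Om := cL.add cE'
      have cG : ContinuousOn (fun Z => G (s, Z)) Om :=
        Gc.comp (by fun_prop) fun Z hZ => ⟨hs0.le, hZ⟩
      have en := energy p1 p2 (fun Z hZ => hQ s ⟨hs.1.le, hs.2.le⟩ Z hZ)
        (fun Z hZ => (le_abs_self _).trans (hW s hs1 Z hZ))
      have m := II_mono cG cS fun Z hZ => by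
        have hZ0 : Z ≠ 0 := Kc_sub hZ
        have d1 := (((h1.eqn s hs0 Z hZ0).sub (h2.eqn s hs0 Z hZ0)).pow 2).mul (gd s hs0 Z hZ0)
        rw [(Gd s hs0 Z hZ0).unique d1]
        have b1 : g (s, Z) ≤ C2 * Vol (Φ s) Z :=
          (div_le_iff₀ (p1.vol_pos hZ0)).1 ((le_abs_self _).trans (hg s hs1 Z hZ))
        have b2 := mul_le_mul_of_nonneg_left b1 (sq_nonneg (Φ s Z - Ψ s Z))
        simp only [Pi.pow_apply, Pi.sub_apply]
        norm_num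
        linarith
      rw [II_add cL cE', II_mul] at m
      linarith
    · rw [II_congr (g := fun _ => 0 * 0) fun Z hZ => by rw [h0 Z (Kc_sub hZ)]; ring, II_mul, zero_mul]
  refine sub_eq_zero.1 (zero_Uniq hβ (fun W w1 w2 => ?_) hZ)
  have hW0 : W ≠ 0 := Kc_sub ⟨w1.le, w2.le⟩
  have hz := II_eq_zero ((hβ.smooth.continuousOn.pow 2).mul (h1.pot t ht').vol_cont)
    (fun Z hZ => mul_nonneg (sq_nonneg _) ((h1.pot t ht').vol_pos (Kc_sub hZ)).le) hE w1 w2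
  exact pow_eq_zero_iff (two_ne_zero) |>.1
    ((mul_eq_zero.1 hz).resolve_right ((h1.pot t ht').vol_pos hW0).ne')

theorem uniq {κ : ℝ} {Φ Ψ : ℝ → V → ℝ} (h1 : Flow κ Φ) (h2 : Flow κ Ψ)
    (h0 : ∀ Z, Z ≠ 0 → Φ 0 Z = Ψ 0 Z) : ∀ t, 0 ≤ t → ∀ Z, Z ≠ 0 → Φ t Z = Ψ t Z := by
  intro T hT
  have sβ : Sm fun t y => Φ t y - Ψ t y := ContDiffOn.sub h1.smooth h2.smooth
  have key : Icc 0 T ⊆ {t | ∀ Z, Z ≠ 0 → Φ t Z = Ψ t Z} := by
    refine IsClosed.Icc_subset_of_forall_mem_nhdsWithin ?_ h0 fun x hx => ?_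
    · refine isClosed_of_closure_subset fun t ht => ⟨fun Z hZ => ?_,
        closure_minimal inter_subset_right isClosed_Icc ht⟩
      have hc : ContinuousOn (fun t => Φ t Z - Ψ t Z) (Icc 0 T) :=
        sβ.continuousOn.comp (f := fun t => (t, Z)) (by fun_prop) fun s hs => ⟨hs.1, hZ⟩
      have h3 := closure_minimal (s := {t | ∀ Z, Z ≠ 0 → Φ t Z = Ψ t Z} ∩ Icc 0 T)
        (t := Icc 0 T ∩ (fun t => Φ t Z - Ψ t Z) ⁻¹' {0}) (fun s hs => ⟨hs.2, sub_eq_zero.2 (hs.1 Z hZ)⟩)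
        (hc.preimage_isClosed_of_isClosed isClosed_Icc (isClosed_singleton (x := 0))) ht
      exact sub_eq_zero.1 h3.2
    · obtain ⟨ε, hε, h⟩ := loc_Uniq h1 h2 hx.2.1 hx.1
      exact mem_of_superset (Ioc_mem_nhdsGT (show x < x + ε by linarith))
        fun s hs => h s ⟨hs.1.le, hs.2⟩
  exact key ⟨hT, le_rfl⟩

end Vale.Agent.P264.U
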